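import Mathlib

/-! Abstract measure-theoretic part: a potential whose contact set consists of two graphs over the
same base set excludes optimal Monge plans. -/

namespace Vale.Agent.P121

open MeasureTheory Set
open scoped ENNReal

variable {X : Type*} [MeasurableSpace X]

/-- contact triples -/
def Ct (A : Set X) (y z : Bool → X → X) (v₁ v₂ v₃ : X) : Prop :=
  ∃ k, ∃ x ∈ A, (v₁ = x ∧ v₂ = y k x ∧ v₃ = z k x) ∨ (v₁ = x ∧ v₂ = z k x ∧ v₃ = y k x) ∨
    (v₁ = y k x ∧ v₂ = x ∧ v₃ = z k x) ∨ (v₁ = y k x ∧ v₂ = z k x ∧ v₃ = x) ∨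
    (v₁ = z k x ∧ v₂ = x ∧ v₃ = y k x) ∨ (v₁ = z k x ∧ v₂ = y k x ∧ v₃ = x)

/-- the union of the five clusters -/
def Sup (A : Set X) (y z : Bool → X → X) : Set X :=
  A ∪ (y false '' A ∪ z false '' A ∪ (y true '' A ∪ z true '' A))

/-- the marginal -/
noncomputable def marg (m : Measure X) (y z : Bool → X → X) : Measure X :=
  (6 : ℝ≥0∞)⁻¹ • ((m + m.map (y false) + m.map (z false)) + (m + m.map (y true) + m.map (z true)))

/-- the data of the construction -/
structure Data (c : X → X → X → ℝ≥0∞) (m : Measure X) (A : Set X) (y z a b : Bool → X → X)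
    (u : X → ℝ≥0∞) : Prop where
  hc : Measurable fun p : X × X × X => c p.1 p.2.1 p.2.2
  hcyc : ∀ v₁ v₂ v₃, c v₁ v₂ v₃ = c v₂ v₃ v₁
  hA : MeasurableSet A
  hmA : ∀ᵐ x ∂m, x ∈ A
  hy : ∀ k, Measurable (y k)
  hz : ∀ k, Measurable (z k)
  ha : ∀ k, Measurable (a k)
  hb : ∀ k, Measurable (b k)
  hY : ∀ k, MeasurableSet (y k '' A)
  hZ : ∀ k, MeasurableSet (z k '' A)
  hay : ∀ k, ∀ x ∈ A, a k (y k x) = x
  hbz : ∀ k, ∀ x ∈ A, b k (z k x) = x
  hAY : ∀ k, ∀ x ∈ A, y k x ∉ A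
  hAZ : ∀ k, ∀ x ∈ A, z k x ∉ A
  hYZ : ∀ k j, ∀ x ∈ A, ∀ x' ∈ A, y k x ≠ z j x'
  hYY : ∀ k j, ∀ x ∈ A, ∀ x' ∈ A, y k x = y j x' → k = j
  hZZ : ∀ k j, ∀ x ∈ A, ∀ x' ∈ A, z k x = z j x' → k = j
  hu : Measurable u
  hu3 : ∀ v ∈ Sup A y z, u v ≤ 3
  hle : ∀ v₁ ∈ Sup A y z, ∀ v₂ ∈ Sup A y z, ∀ v₃ ∈ Sup A y z, u v₁ + u v₂ + u v₃ ≤ c v₁ v₂ v₃
  heq : ∀ v₁ ∈ Sup A y z, ∀ v₂ ∈ Sup A y z, ∀ v₃ ∈ Sup A y z,
    u v₁ + u v₂ + u v₃ = c v₁ v₂ v₃ → Ct A y z v₁ v₂ v₃
  hct : ∀ k, ∀ x ∈ A, c x (y k x) (z k x) = u x + u (y k x) + u (z k x)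

namespace Data

variable {c : X → X → X → ℝ≥0∞} {m : Measure X} {A : Set X} {y z a b : Bool → X → X}
  {u : X → ℝ≥0∞} (D : Data c m A y z a b u)

include D

lemma measurableSet_Sup : MeasurableSet (Sup A y z) :=
  D.hA.union (((D.hY _).union (D.hZ _)).union ((D.hY _).union (D.hZ _)))

lemma marg_apply {s : Set X} (hs : MeasurableSet s) :
    marg m y z s = 6⁻¹ * ((m s + m (y false ⁻¹' s) + m (z false ⁻¹' s))
      + (m s + m (y true ⁻¹' s) + m (z true ⁻¹' s))) := by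
  simp only [marg, Measure.smul_apply, Measure.add_apply, smul_eq_mul]
  rw [Measure.map_apply (D.hy _) hs, Measure.map_apply (D.hy _) hs,
    Measure.map_apply (D.hz _) hs, Measure.map_apply (D.hz _) hs]

lemma isProb [IsProbabilityMeasure m] : IsProbabilityMeasure (marg m y z) := by
  constructor
  rw [D.marg_apply MeasurableSet.univ]
  simp only [preimage_univ, measure_univ]
  have : (1 + 1 + 1 + (1 + 1 + 1) : ℝ≥0∞) = 6 := by norm_num
  rw [this, ENNReal.inv_mul_cancel (by norm_num) (by norm_num)]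

lemma null_of {s : Set X} (h : ∀ x ∈ A, x ∉ s) : m s = 0 := by
  have : ∀ᵐ x ∂m, x ∉ s := by
    filter_upwards [D.hmA] with x hx using h x hx
  simpa [ae_iff] using this

lemma congr_of {s t : Set X} (h : ∀ x ∈ A, x ∈ s ↔ x ∈ t) : m s = m t := by
  apply measure_congr
  filter_upwards [D.hmA] with x hx
  exact propext (h x hx)

lemma ae_Sup : ∀ᵐ v ∂(marg m y z), v ∈ Sup A y z := by
  rw [ae_iff]
  have hs : MeasurableSet {v | ¬ v ∈ Sup A y z} := D.measurableSet_Sup.compl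
  rw [D.marg_apply hs, D.null_of (s := {v | ¬ v ∈ Sup A y z}), D.null_of, D.null_of, D.null_of,
    D.null_of]
  · simp
  all_goals
    intro x hx
    simp only [mem_preimage, mem_ofPred_eq, not_not, Sup, mem_union]
    first
      | exact Or.inl hx
      | exact Or.inr (Or.inl (Or.inl (mem_image_of_mem _ hx)))
      | exact Or.inr (Or.inl (Or.inr (mem_image_of_mem _ hx)))
      | exact Or.inr (Or.inr (Or.inl (mem_image_of_mem _ hx)))
      | exact Or.inr (Or.inr (Or.inr (mem_image_of_mem _ hx)))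

lemma int_u_le [IsProbabilityMeasure m] : ∫⁻ v, u v ∂(marg m y z) ≤ 3 := by
  have := D.isProb
  calc ∫⁻ v, u v ∂(marg m y z) ≤ ∫⁻ _, 3 ∂(marg m y z) := by
        apply lintegral_mono_ae
        filter_upwards [D.ae_Sup] with v hv using D.hu3 v hv
    _ = 3 := by simp

lemma int_sum {π : Measure (X × X × X)} (h1 : π.map (fun p => p.1) = marg m y z)
    (h2 : π.map (fun p => p.2.1) = marg m y z) (h3 : π.map (fun p => p.2.2) = marg m y z) :
    ∫⁻ p, (u p.1 + u p.2.1 + u p.2.2) ∂π = 3 * ∫⁻ v, u v ∂(marg m y z) := by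
  have m1 : Measurable fun p : X × X × X => p.1 := measurable_fst
  have m2 : Measurable fun p : X × X × X => p.2.1 := measurable_snd.fst
  have m3 : Measurable fun p : X × X × X => p.2.2 := measurable_snd.snd
  have k1 : Measurable fun p : X × X × X => u p.1 := D.hu.comp m1
  have k2 : Measurable fun p : X × X × X => u p.1 + u p.2.1 := k1.add (D.hu.comp m2)
  rw [lintegral_add_left k2, lintegral_add_left k1,
    ← lintegral_map D.hu m1, ← lintegral_map D.hu m2, ← lintegral_map D.hu m3, h1, h2, h3]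
  ring

lemma ae_Sup3 {π : Measure (X × X × X)} (h1 : π.map (fun p => p.1) = marg m y z)
    (h2 : π.map (fun p => p.2.1) = marg m y z) (h3 : π.map (fun p => p.2.2) = marg m y z) :
    ∀ᵐ p ∂π, p.1 ∈ Sup A y z ∧ p.2.1 ∈ Sup A y z ∧ p.2.2 ∈ Sup A y z := by
  have m1 : Measurable fun p : X × X × X => p.1 := measurable_fst
  have m2 : Measurable fun p : X × X × X => p.2.1 := measurable_snd.fst
  have m3 : Measurable fun p : X × X × X => p.2.2 := measurable_snd.snd
  have a1 := D.ae_Sup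
  have a2 := D.ae_Sup
  have a3 := D.ae_Sup
  rw [← h1] at a1
  rw [← h2] at a2
  rw [← h3] at a3
  filter_upwards [ae_of_ae_map m1.aemeasurable a1, ae_of_ae_map m2.aemeasurable a2,
    ae_of_ae_map m3.aemeasurable a3] with p p1 p2 p3 using ⟨p1, p2, p3⟩

lemma lower {π : Measure (X × X × X)} (h1 : π.map (fun p => p.1) = marg m y z)
    (h2 : π.map (fun p => p.2.1) = marg m y z) (h3 : π.map (fun p => p.2.2) = marg m y z) :
    3 * ∫⁻ v, u v ∂(marg m y z) ≤ ∫⁻ p, c p.1 p.2.1 p.2.2 ∂π := by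
  rw [← D.int_sum h1 h2 h3]
  apply lintegral_mono_ae
  filter_upwards [D.ae_Sup3 h1 h2 h3] with p hp using D.hle _ hp.1 _ hp.2.1 _ hp.2.2

end Data

/-- the optimal plan -/
noncomputable def plan (m : Measure X) (y z : Bool → X → X) : Measure (X × X × X) :=
  (6 : ℝ≥0∞)⁻¹ • ((m.map (fun x => (x, y false x, z false x))
      + m.map (fun x => (y false x, z false x, x)) + m.map (fun x => (z false x, x, y false x)))
    + (m.map (fun x => (x, y true x, z true x))
      + m.map (fun x => (y true x, z true x, x)) + m.map (fun x => (z true x, x, y true x))))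

namespace Data

variable {c : X → X → X → ℝ≥0∞} {m : Measure X} {A : Set X} {y z a b : Bool → X → X}
  {u : X → ℝ≥0∞} (D : Data c m A y z a b u)

include D

lemma m1 (k : Bool) : Measurable fun x => (x, y k x, z k x) :=
  measurable_id.prodMk ((D.hy k).prodMk (D.hz k))

lemma m2 (k : Bool) : Measurable fun x => (y k x, z k x, x) :=
  (D.hy k).prodMk ((D.hz k).prodMk measurable_id)

lemma m3 (k : Bool) : Measurable fun x => (z k x, x, y k x) :=
  (D.hz k).prodMk (measurable_id.prodMk (D.hy k))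

lemma plan_map {f : X × X × X → X} (hf : Measurable f) : (plan m y z).map f =
    (6 : ℝ≥0∞)⁻¹ • ((m.map (fun x => f (x, y false x, z false x))
      + m.map (fun x => f (y false x, z false x, x))
      + m.map (fun x => f (z false x, x, y false x)))
    + (m.map (fun x => f (x, y true x, z true x))
      + m.map (fun x => f (y true x, z true x, x))
      + m.map (fun x => f (z true x, x, y true x)))) := by
  simp only [plan, Measure.map_smul, Measure.map_add _ _ hf]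
  rw [Measure.map_map hf (D.m1 _), Measure.map_map hf (D.m1 _), Measure.map_map hf (D.m2 _),
    Measure.map_map hf (D.m2 _), Measure.map_map hf (D.m3 _), Measure.map_map hf (D.m3 _)]
  rfl

lemma plan_1 : (plan m y z).map (fun p => p.1) = marg m y z := by
  rw [D.plan_map measurable_fst]
  simp only [marg, Measure.map_id']

lemma plan_2 : (plan m y z).map (fun p => p.2.1) = marg m y z := by
  rw [D.plan_map measurable_snd.fst]
  simp only [marg, Measure.map_id']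
  congr 1
  abel

lemma plan_3 : (plan m y z).map (fun p => p.2.2) = marg m y z := by
  rw [D.plan_map measurable_snd.snd]
  simp only [marg, Measure.map_id']
  congr 1
  abel

lemma plan_prob [IsProbabilityMeasure m] : IsProbabilityMeasure (plan m y z) := by
  constructor
  have h := congrArg (fun ν : Measure X => ν univ) D.plan_1
  have := D.isProb
  simp only [measure_univ] at h
  rwa [Measure.map_apply measurable_fst MeasurableSet.univ, preimage_univ] at h

lemma plan_cost : ∫⁻ p, c p.1 p.2.1 p.2.2 ∂(plan m y z) = 3 * ∫⁻ v, u v ∂(marg m y z) := by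
  rw [← D.int_sum D.plan_1 D.plan_2 D.plan_3]
  apply lintegral_congr_ae
  have hs : MeasurableSet {p : X × X × X | c p.1 p.2.1 p.2.2 = u p.1 + u p.2.1 + u p.2.2} :=
    measurableSet_eq_fun D.hc (((D.hu.comp measurable_fst).add
      (D.hu.comp measurable_snd.fst)).add (D.hu.comp measurable_snd.snd))
  have k1 : ∀ k, ∀ᵐ p ∂(m.map fun x => (x, y k x, z k x)),
      c p.1 p.2.1 p.2.2 = u p.1 + u p.2.1 + u p.2.2 := by
    intro k
    rw [ae_map_iff (D.m1 k).aemeasurable hs]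
    filter_upwards [D.hmA] with x hx using D.hct k x hx
  have k2 : ∀ k, ∀ᵐ p ∂(m.map fun x => (y k x, z k x, x)),
      c p.1 p.2.1 p.2.2 = u p.1 + u p.2.1 + u p.2.2 := by
    intro k
    rw [ae_map_iff (D.m2 k).aemeasurable hs]
    filter_upwards [D.hmA] with x hx
    rw [← D.hcyc, D.hct k x hx]; ring
  have k3 : ∀ k, ∀ᵐ p ∂(m.map fun x => (z k x, x, y k x)),
      c p.1 p.2.1 p.2.2 = u p.1 + u p.2.1 + u p.2.2 := by
    intro k
    rw [ae_map_iff (D.m3 k).aemeasurable hs]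
    filter_upwards [D.hmA] with x hx
    rw [D.hcyc, D.hct k x hx]; ring
  apply Measure.ae_smul_measure
  simp only [ae_add_measure_iff]
  exact ⟨⟨⟨k1 _, k2 _⟩, k3 _⟩, ⟨⟨k1 _, k2 _⟩, k3 _⟩⟩

lemma marg_Y (k : Bool) {N : Set X} (hN : MeasurableSet N) :
    marg m y z (y k '' A ∩ a k ⁻¹' N) = 6⁻¹ * m N := by
  have hs : MeasurableSet (y k '' A ∩ a k ⁻¹' N) := (D.hY k).inter (D.ha k hN)
  have e0 : m (y k '' A ∩ a k ⁻¹' N) = 0 := by
    apply D.null_of
    rintro x hx ⟨⟨x', hx', rfl⟩, -⟩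
    exact D.hAY k x' hx' hx
  have e1 : ∀ j, m (z j ⁻¹' (y k '' A ∩ a k ⁻¹' N)) = 0 := by
    intro j
    apply D.null_of
    rintro x hx ⟨⟨x', hx', h⟩, -⟩
    exact D.hYZ k j x' hx' x hx h
  have e2 : m (y k ⁻¹' (y k '' A ∩ a k ⁻¹' N)) = m N := by
    apply D.congr_of
    intro x hx
    simp only [mem_preimage, mem_inter_iff, D.hay k x hx]
    exact ⟨fun h => h.2, fun h => ⟨mem_image_of_mem _ hx, h⟩⟩
  have e3 : ∀ j, j ≠ k → m (y j ⁻¹' (y k '' A ∩ a k ⁻¹' N)) = 0 := by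
    intro j hj
    apply D.null_of
    rintro x hx ⟨⟨x', hx', h⟩, -⟩
    exact hj (D.hYY k j x' hx' x hx h).symm
  rw [D.marg_apply hs, e0, e1, e1]
  cases k
  · rw [e2, e3 true (by simp)]; simp
  · rw [e2, e3 false (by simp)]; simp

lemma marg_Z (k : Bool) {N : Set X} (hN : MeasurableSet N) :
    marg m y z (z k '' A ∩ b k ⁻¹' N) = 6⁻¹ * m N := by
  have hs : MeasurableSet (z k '' A ∩ b k ⁻¹' N) := (D.hZ k).inter (D.hb k hN)
  have e0 : m (z k '' A ∩ b k ⁻¹' N) = 0 := by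
    apply D.null_of
    rintro x hx ⟨⟨x', hx', rfl⟩, -⟩
    exact D.hAZ k x' hx' hx
  have e1 : ∀ j, m (y j ⁻¹' (z k '' A ∩ b k ⁻¹' N)) = 0 := by
    intro j
    apply D.null_of
    rintro x hx ⟨⟨x', hx', h⟩, -⟩
    exact D.hYZ j k x hx x' hx' h.symm
  have e2 : m (z k ⁻¹' (z k '' A ∩ b k ⁻¹' N)) = m N := by
    apply D.congr_of
    intro x hx
    simp only [mem_preimage, mem_inter_iff, D.hbz k x hx]
    exact ⟨fun h => h.2, fun h => ⟨mem_image_of_mem _ hx, h⟩⟩
  have e3 : ∀ j, j ≠ k → m (z j ⁻¹' (z k '' A ∩ b k ⁻¹' N)) = 0 := by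
    intro j hj
    apply D.null_of
    rintro x hx ⟨⟨x', hx', h⟩, -⟩
    exact hj (D.hZZ k j x' hx' x hx h).symm
  rw [D.marg_apply hs, e0, e1, e1]
  cases k
  · rw [e2, e3 true (by simp)]; simp
  · rw [e2, e3 false (by simp)]; simp

/-- the pointwise counting inequality -/
lemma count (k : Bool) {N : Set X} {v₁ v₂ v₃ : X} (h : Ct A y z v₁ v₂ v₃)
    (hN : v₁ ∈ N → v₂ ∉ y k '' A ∧ v₃ ∉ y k '' A) :
    (y k '' A ∩ a k ⁻¹' N).indicator (1 : X → ℝ≥0∞) v₂
      + (y k '' A ∩ a k ⁻¹' N).indicator (1 : X → ℝ≥0∞) v₃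
      ≤ (z k '' A ∩ b k ⁻¹' N).indicator (1 : X → ℝ≥0∞) v₁ := by
  obtain ⟨j, x, hx, h⟩ := h
  have n1 : x ∉ y k '' A ∩ a k ⁻¹' N := by
    rintro ⟨⟨x', hx', rfl⟩, -⟩
    exact D.hAY k x' hx' hx
  have n2 : z j x ∉ y k '' A ∩ a k ⁻¹' N := by
    rintro ⟨⟨x', hx', h⟩, -⟩
    exact D.hYZ k j x' hx' x hx h
  have n3 : y j x ∈ y k '' A ∩ a k ⁻¹' N → x ∈ N ∧ z j x ∈ z k '' A ∩ b k ⁻¹' N := by
    rintro ⟨⟨x', hx', h⟩, h2⟩
    obtain rfl := D.hYY k j x' hx' x hx h
    rw [mem_preimage, D.hay k x hx] at h2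
    exact ⟨h2, mem_image_of_mem _ hx, by rwa [mem_preimage, D.hbz k x hx]⟩
  have n4 : (y k '' A ∩ a k ⁻¹' N).indicator (1 : X → ℝ≥0∞) (y j x)
      ≤ (z k '' A ∩ b k ⁻¹' N).indicator (1 : X → ℝ≥0∞) (z j x) := by
    by_cases hh : y j x ∈ y k '' A ∩ a k ⁻¹' N
    · rw [indicator_of_mem hh, indicator_of_mem (n3 hh).2]; simp
    · rw [indicator_of_notMem hh]; simp
  rcases h with ⟨rfl, rfl, rfl⟩ | ⟨rfl, rfl, rfl⟩ | ⟨rfl, rfl, rfl⟩ | ⟨rfl, rfl, rfl⟩ |
    ⟨rfl, rfl, rfl⟩ | ⟨rfl, rfl, rfl⟩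
  · rw [indicator_of_notMem n2, indicator_of_notMem (fun hh => (hN (n3 hh).1).1 hh.1)]; simp
  · rw [indicator_of_notMem n2, indicator_of_notMem (fun hh => (hN (n3 hh).1).2 hh.1)]; simp
  · rw [indicator_of_notMem n2, indicator_of_notMem n1]; simp
  · rw [indicator_of_notMem n2, indicator_of_notMem n1]; simp
  · rw [indicator_of_notMem n1, zero_add]; exact n4
  · rw [indicator_of_notMem n1, add_zero]; exact n4

theorem no_monge [IsProbabilityMeasure m] {T₂ T₃ : X → X} (h2 : Measurable T₂)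
    (h3 : Measurable T₃) (e2 : (marg m y z).map T₂ = marg m y z)
    (e3 : (marg m y z).map T₃ = marg m y z)
    (hopt : ∫⁻ x, c x (T₂ x) (T₃ x) ∂(marg m y z) ≤ 3 * ∫⁻ v, u v ∂(marg m y z)) : False := by
  have hf : Measurable fun x => (x, T₂ x, T₃ x) := measurable_id.prodMk (h2.prodMk h3)
  set μ := marg m y z with hμ
  have p1 : (μ.map fun x => (x, T₂ x, T₃ x)).map (fun p => p.1) = μ := by
    rw [Measure.map_map measurable_fst hf]; exact Measure.map_id
  have p2 : (μ.map fun x => (x, T₂ x, T₃ x)).map (fun p => p.2.1) = μ := by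
    rw [Measure.map_map measurable_snd.fst hf]; exact e2
  have p3 : (μ.map fun x => (x, T₂ x, T₃ x)).map (fun p => p.2.2) = μ := by
    rw [Measure.map_map measurable_snd.snd hf]; exact e3
  have hsum := D.int_sum p1 p2 p3
  have hum : Measurable fun p : X × X × X => u p.1 + u p.2.1 + u p.2.2 :=
    ((D.hu.comp measurable_fst).add (D.hu.comp measurable_snd.fst)).add
      (D.hu.comp measurable_snd.snd)
  rw [lintegral_map hum hf] at hsum
  have hS := ae_of_ae_map hf.aemeasurable (D.ae_Sup3 p1 p2 p3)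
  have hfin : 3 * ∫⁻ v, u v ∂μ ≠ ∞ :=
    ENNReal.mul_ne_top (by norm_num) (ne_top_of_le_ne_top (by norm_num) D.int_u_le)
  have hae : (fun x => u x + u (T₂ x) + u (T₃ x)) =ᵐ[μ] fun x => c x (T₂ x) (T₃ x) := by
    apply ae_eq_of_ae_le_of_lintegral_le
    · filter_upwards [hS] with x hx using D.hle _ hx.1 _ hx.2.1 _ hx.2.2
    · exact hsum ▸ hfin
    · exact (D.hc.comp hf).aemeasurable
    · exact hsum ▸ hopt
  have hct : ∀ᵐ x ∂μ, Ct A y z x (T₂ x) (T₃ x) := by
    filter_upwards [hS, hae] with x hx hx2 using D.heq _ hx.1 _ hx.2.1 _ hx.2.2 hx2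
  have hnull : ∀ k, m {x | T₂ x ∉ y k '' A ∧ T₃ x ∉ y k '' A} = 0 := by
    intro k
    set N := {x | T₂ x ∉ y k '' A ∧ T₃ x ∉ y k '' A} with hNdef
    have hN : MeasurableSet N := (h2 (D.hY k)).compl.inter (h3 (D.hY k)).compl
    have hW : MeasurableSet (y k '' A ∩ a k ⁻¹' N) := (D.hY k).inter (D.ha k hN)
    have hV : MeasurableSet (z k '' A ∩ b k ⁻¹' N) := (D.hZ k).inter (D.hb k hN)
    have hI : Measurable ((y k '' A ∩ a k ⁻¹' N).indicator (1 : X → ℝ≥0∞)) :=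
      measurable_one.indicator hW
    have h : ∫⁻ x, ((y k '' A ∩ a k ⁻¹' N).indicator (1 : X → ℝ≥0∞) (T₂ x)
        + (y k '' A ∩ a k ⁻¹' N).indicator (1 : X → ℝ≥0∞) (T₃ x)) ∂μ
        ≤ ∫⁻ x, (z k '' A ∩ b k ⁻¹' N).indicator (1 : X → ℝ≥0∞) x ∂μ := by
      apply lintegral_mono_ae
      filter_upwards [hct] with x hx using D.count k hx (fun h => h)
    have hI2 : Measurable fun x => (y k '' A ∩ a k ⁻¹' N).indicator (1 : X → ℝ≥0∞) (T₂ x) :=
      hI.comp h2
    rw [lintegral_add_left hI2, ← lintegral_map hI h2, ← lintegral_map hI h3, e2, e3,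
      lintegral_indicator_one hW, lintegral_indicator_one hV, hμ, D.marg_Y k hN,
      D.marg_Z k hN] at h
    have hne : (6 : ℝ≥0∞)⁻¹ * m N ≠ ∞ := ENNReal.mul_ne_top (by norm_num) (measure_ne_top _ _)
    have h0 : (6 : ℝ≥0∞)⁻¹ * m N = 0 := by
      have : (6 : ℝ≥0∞)⁻¹ * m N + 6⁻¹ * m N ≤ 6⁻¹ * m N + 0 := by simpa using h
      exact nonpos_iff_eq_zero.1 ((ENNReal.add_le_add_iff_left hne).1 this)
    simpa using h0
  have hac : m ≪ μ := by
    intro s hs
    simp only [hμ, marg, Measure.smul_apply, Measure.add_apply, smul_eq_mul, mul_eq_zero,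
      add_eq_zero] at hs
    rcases hs with hs | hs
    · simp at hs
    · exact hs.1.1.1
  have q0 := measure_eq_zero_iff_ae_notMem.1 (hnull false)
  have q1 := measure_eq_zero_iff_ae_notMem.1 (hnull true)
  have : ∀ᵐ x ∂m, False := by
    filter_upwards [D.hmA, hac.ae_le hct, q0, q1] with x hxA hx hq0 hq1
    simp only [not_and_or, not_not] at hq0 hq1
    obtain ⟨j, x', hx', h⟩ := hx
    have key : ∀ k, (y j x' ∈ y k '' A ∨ z j x' ∈ y k '' A) → k = j := by
      rintro k (⟨w, hw, h⟩ | ⟨w, hw, h⟩)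
      · exact D.hYY k j w hw x' hx' h
      · exact (D.hYZ k j w hw x' hx' h).elim
    rcases h with ⟨-, h2, h3⟩ | ⟨-, h2, h3⟩ | ⟨h1, -⟩ | ⟨h1, -⟩ | ⟨h1, -⟩ | ⟨h1, -⟩
    · rw [h2, h3] at hq0 hq1
      exact Bool.false_ne_true ((key _ hq0).trans (key _ hq1).symm)
    · rw [h2, h3] at hq0 hq1
      exact Bool.false_ne_true ((key _ hq0.symm).trans (key _ hq1.symm).symm)
    · exact D.hAY j x' hx' (h1 ▸ hxA)
    · exact D.hAY j x' hx' (h1 ▸ hxA)
    · exact D.hAZ j x' hx' (h1 ▸ hxA)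
    · exact D.hAZ j x' hx' (h1 ▸ hxA)
  exact this.exists.elim fun _ h => h

end Data

end Vale.Agent.P121
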