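import Vale.Agent.P121.Core
import Vale.Agent.P121.Abstract

/-! Assembly of the counterexample. -/

namespace Vale.Agent.P121

open MeasureTheory Set
open scoped RealInnerProductSpace ENNReal NNReal

variable {E : Type*} [NormedAddCommGroup E] [InnerProductSpace ℝ E]

/-- the Coulomb cost with values in `[0, ∞]` -/
noncomputable def ce (v₁ v₂ v₃ : E) : ℝ≥0∞ :=
  (edist v₁ v₂)⁻¹ + (edist v₁ v₃)⁻¹ + (edist v₂ v₃)⁻¹

omit [InnerProductSpace ℝ E] in
lemma le_inv_edist {v w : E} {r : ℝ} (hr : 0 < r) (h : ‖v - w‖ ≤ r) :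
    ENNReal.ofReal r⁻¹ ≤ (edist v w)⁻¹ := by
  rw [edist_dist, dist_eq_norm, ENNReal.ofReal_inv_of_pos hr, ENNReal.inv_le_inv]
  exact ENNReal.ofReal_le_ofReal h

omit [InnerProductSpace ℝ E] in
lemma lt_ce {v₁ v₂ v₃ : E} {t₁ t₂ t₃ r₁ r₂ r₃ : ℝ} (h₁ : 0 ≤ t₁) (h₂ : 0 ≤ t₂) (h₃ : 0 ≤ t₃)
    (p₁ : 0 < r₁) (p₂ : 0 < r₂) (p₃ : 0 < r₃) (d₁ : ‖v₁ - v₂‖ ≤ r₁) (d₂ : ‖v₁ - v₃‖ ≤ r₂)
    (d₃ : ‖v₂ - v₃‖ ≤ r₃) (h : t₁ + t₂ + t₃ < r₁⁻¹ + r₂⁻¹ + r₃⁻¹) :
    ENNReal.ofReal t₁ + ENNReal.ofReal t₂ + ENNReal.ofReal t₃ < ce v₁ v₂ v₃ := by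
  rw [← ENNReal.ofReal_add h₁ h₂, ← ENNReal.ofReal_add (add_nonneg h₁ h₂) h₃]
  refine lt_of_lt_of_le ((ENNReal.ofReal_lt_ofReal_iff (by positivity)).2 h) ?_
  rw [ENNReal.ofReal_add (by positivity) (by positivity),
    ENNReal.ofReal_add (by positivity) (by positivity), ce]
  gcongr
  · exact le_inv_edist p₁ d₁
  · exact le_inv_edist p₂ d₂
  · exact le_inv_edist p₃ d₃

omit [InnerProductSpace ℝ E] in
lemma ce_eq {v₁ v₂ v₃ : E} (d₁ : 0 < ‖v₁ - v₂‖) (d₂ : 0 < ‖v₁ - v₃‖) (d₃ : 0 < ‖v₂ - v₃‖) :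
    ce v₁ v₂ v₃ = ENNReal.ofReal (cr v₁ v₂ v₃) := by
  rw [cr, ENNReal.ofReal_add (by positivity) (by positivity),
    ENNReal.ofReal_add (by positivity) (by positivity), ENNReal.ofReal_inv_of_pos d₁,
    ENNReal.ofReal_inv_of_pos d₂, ENNReal.ofReal_inv_of_pos d₃, ce]
  simp only [edist_dist, dist_eq_norm]

lemma exists_left_inv [FiniteDimensional ℝ E] (f : E → E) (s : Set E) (K : ℝ≥0)
    (h : ∀ x ∈ s, ∀ x' ∈ s, ‖x - x'‖ ≤ K * ‖f x - f x'‖) :
    ∃ (a : E → E) (K' : ℝ≥0), LipschitzWith K' a ∧ ∀ x ∈ s, a (f x) = x := by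
  have hinj : InjOn f s := by
    intro x hx x' hx' e
    have := h x hx x' hx'
    rw [e, sub_self, norm_zero, mul_zero] at this
    exact sub_eq_zero.1 (norm_le_zero_iff.1 this)
  have hinv : ∀ x ∈ s, Function.invFunOn f s (f x) = x := fun x hx =>
    hinj.leftInvOn_invFunOn hx
  have hl : LipschitzOnWith K (Function.invFunOn f s) (f '' s) := by
    refine LipschitzOnWith.of_dist_le_mul ?_
    rintro _ ⟨x, hx, rfl⟩ _ ⟨x', hx', rfl⟩
    rw [hinv x hx, hinv x' hx', dist_eq_norm, dist_eq_norm]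
    exact h x hx x' hx'
  obtain ⟨g, hg, e⟩ := hl.extend_finite_dimension
  exact ⟨g, _, hg, fun x hx => by rw [← e (mem_image_of_mem f hx), hinv x hx]⟩

/-- One branch of the contact set. -/
structure Branch (p : E) (y z a b : E → E) : Prop where
  cy : Continuous y
  cz : Continuous z
  la : ∃ K, LipschitzWith K a
  lb : ∃ K, LipschitzWith K b
  hz : ∀ x, ‖x‖ ≤ 1 / 10 ^ 12 → ‖z x + p‖ ≤ 1 / 10 ^ 8
  fix : ∀ x, ‖x‖ ≤ 1 / 10 ^ 12 → psi p x (z x) = z x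
  hy : ∀ x, ‖x‖ ≤ 1 / 10 ^ 12 → y x = yf x (z x)
  hay : ∀ x, ‖x‖ ≤ 1 / 10 ^ 12 → a (y x) = x
  hbz : ∀ x, ‖x‖ ≤ 1 / 10 ^ 12 → b (z x) = x

lemma exists_branch [FiniteDimensional ℝ E] {p : E} (hp : ‖p‖ = 1) :
    ∃ y z a b : E → E, Branch p y z a b := by
  have : CompleteSpace E := FiniteDimensional.complete ℝ E
  have h : ∀ x : E, ∃ z : E, ‖x‖ ≤ 1 / 10 ^ 12 → ‖z + p‖ ≤ 1 / 10 ^ 8 ∧ psi p x z = z := by
    intro x
    by_cases hx : ‖x‖ ≤ 1 / 10 ^ 12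
    · obtain ⟨z, hz⟩ := exists_fixed hp hx
      exact ⟨z, fun _ => hz⟩
    · exact ⟨0, fun h => (hx h).elim⟩
  choose z0 hz0 using h
  set s : Set E := {x | ‖x‖ ≤ 1 / 10 ^ 12} with hs
  have l0 : ∀ x ∈ s, ∀ x' ∈ s, ‖z0 x - z0 x'‖ ≤ 4000 * ‖x - x'‖ := by
    intro x hx x' hx'
    have := psi_lip hp hx (hz0 x hx).1 hx' (hz0 x' hx').1
    rw [(hz0 x hx).2, (hz0 x' hx').2] at this
    have := norm_nonneg (x - x')
    linarith
  have l1 : LipschitzOnWith 4000 z0 s := by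
    refine LipschitzOnWith.of_dist_le_mul fun x hx x' hx' => ?_
    rw [dist_eq_norm, dist_eq_norm]
    exact_mod_cast l0 x hx x' hx'
  have l2 : LipschitzOnWith (10 ^ 8) (fun x => yf x (z0 x)) s := by
    refine LipschitzOnWith.of_dist_le_mul fun x hx x' hx' => ?_
    rw [dist_eq_norm, dist_eq_norm]
    have := yf_lip hp hx (hz0 x hx).1 hx' (hz0 x' hx').1
    have := l0 x hx x' hx'
    have := norm_nonneg (x - x')
    push_cast
    linarith
  obtain ⟨z, hz, ez⟩ := l1.extend_finite_dimension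
  obtain ⟨y, hy, ey⟩ := l2.extend_finite_dimension
  obtain ⟨a, Ka, ha, hay⟩ := exists_left_inv y s 1 (by
    intro x hx x' hx'
    rw [← ey hx, ← ey hx']
    have := inv_y hp hx (hz0 x hx).1 hx' (hz0 x' hx').1 (hz0 x hx).2 (hz0 x' hx').2
    have := norm_nonneg (z0 x - z0 x')
    have := norm_nonneg (yf x (z0 x) - yf x' (z0 x'))
    push_cast
    linarith)
  obtain ⟨b, Kb, hb, hbz⟩ := exists_left_inv z s (10 ^ 5) (by
    intro x hx x' hx'
    rw [← ez hx, ← ez hx']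
    exact_mod_cast inv_z hp hx (hz0 x hx).1 hx' (hz0 x' hx').1 (hz0 x hx).2 (hz0 x' hx').2)
  refine ⟨y, z, a, b, hy.continuous, hz.continuous, ⟨_, ha⟩, ⟨_, hb⟩, ?_, ?_, ?_, hay, hbz⟩
  · intro x hx; rw [← ez hx]; exact (hz0 x hx).1
  · intro x hx; rw [← ez hx]; exact (hz0 x hx).2
  · intro x hx; rw [← ez hx, ← ey hx]

lemma u0_bounds {x : E} (hx : ‖x‖ ≤ 1 / 10 ^ 12) : 1999 / 1000 ≤ u0 x ∧ u0 x ≤ 2 := by
  have h0 := norm_nonneg x
  have : ‖x‖ ^ 2 ≤ (1 / 10 ^ 12) ^ 2 := by gcongr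
  have := sq_nonneg ‖x‖
  simp only [u0]
  constructor <;> linarith

lemma um_bounds {p z : E} (hp : ‖p‖ = 1) (hz : ‖z + p‖ ≤ 1 / 10 ^ 8) :
    249 / 1000 ≤ um p z ∧ um p z ≤ 251 / 1000 := by
  have h0 := norm_nonneg (z + p)
  have : ‖z + p‖ ^ 2 ≤ (1 / 10 ^ 8) ^ 2 := by gcongr
  have := sq_nonneg ‖z + p‖
  have h1 := abs_real_inner_le_norm p (z + p)
  rw [hp, one_mul, abs_le] at h1
  simp only [um]
  constructor <;> linarith [h1.1, h1.2]

lemma inv_bounds {t c lo hi : ℝ} (hc : 0 < c - 1 / 1000) (h1 : c - 1 / 1000 ≤ t)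
    (h2 : t ≤ c + 1 / 1000) (hlo : lo * (c + 1 / 1000) ≤ 1) (hlo0 : 0 ≤ lo)
    (hhi : 1 ≤ hi * (c - 1 / 1000)) (hhi0 : 0 ≤ hi) : lo ≤ t⁻¹ ∧ t⁻¹ ≤ hi := by
  have ht : 0 < t := by linarith
  constructor
  · rw [inv_eq_one_div, le_div_iff₀ ht]
    nlinarith
  · rw [inv_eq_one_div, div_le_iff₀ ht]
    nlinarith

lemma cr_bounds {p x z : E} (hp : ‖p‖ = 1) (hx : ‖x‖ ≤ 1 / 10 ^ 12) (hz : ‖z + p‖ ≤ 1 / 10 ^ 8) :
    2495 / 1000 ≤ cr x (yf x z) z ∧ cr x (yf x z) z ≤ 2505 / 1000 := by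
  have a1 := norm_ge_of_near (by rw [norm_neg, hp]) (xy_near hp hx hz)
  have a2 := norm_le_of_near (by rw [norm_neg, hp]) (xy_near hp hx hz)
  have b1 := norm_ge_of_near hp (xz_near hx hz)
  have b2 := norm_le_of_near hp (xz_near hx hz)
  have c1 := norm_ge_of_near (norm_two_unit hp) (zy_near hp hx hz)
  have c2 := norm_le_of_near (norm_two_unit hp) (zy_near hp hx hz)
  rw [norm_sub_rev] at c1 c2
  have i1 := inv_bounds (t := ‖x - yf x z‖) (c := 1) (lo := 998 / 1000) (hi := 1002 / 1000)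
    (by norm_num) (by linarith) (by linarith) (by norm_num) (by norm_num) (by norm_num)
    (by norm_num)
  have i2 := inv_bounds (t := ‖x - z‖) (c := 1) (lo := 998 / 1000) (hi := 1002 / 1000)
    (by norm_num) (by linarith) (by linarith) (by norm_num) (by norm_num) (by norm_num)
    (by norm_num)
  have i3 := inv_bounds (t := ‖yf x z - z‖) (c := 2) (lo := 499 / 1000) (hi := 501 / 1000)
    (by norm_num) (by linarith) (by linarith) (by norm_num) (by norm_num) (by norm_num)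
    (by norm_num)
  simp only [cr]
  constructor <;> linarith [i1.1, i1.2, i2.1, i2.2, i3.1, i3.2]

open Classical in
/-- the Kantorovich potential -/
noncomputable def pot (p : Bool → E) (y z a : Bool → E → E) (v : E) : ℝ :=
  if v ∈ Metric.closedBall (0 : E) (1 / 10 ^ 12) then u0 v
  else if v ∈ y false '' Metric.closedBall (0 : E) (1 / 10 ^ 12) then
    cr (a false v) v (z false (a false v)) - u0 (a false v) - um (p false) (z false (a false v))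
  else if v ∈ y true '' Metric.closedBall (0 : E) (1 / 10 ^ 12) then
    cr (a true v) v (z true (a true v)) - u0 (a true v) - um (p true) (z true (a true v))
  else if v ∈ z false '' Metric.closedBall (0 : E) (1 / 10 ^ 12) then um (p false) v
  else um (p true) v

section
variable {p : Bool → E} {y z a b : Bool → E → E} (hp : ∀ k, ‖p k‖ = 1)
  (hpp : ⟪p false, p true⟫ = 0) (B : ∀ k, Branch (p k) (y k) (z k) (a k) (b k))

include hp hpp in
lemma pp_sub {k j : Bool} (h : k ≠ j) : 14 / 10 ≤ ‖p k - p j‖ ∧ ‖p k - p j‖ ≤ 1415 / 1000 := by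
  have h0 : ⟪p k, p j⟫ = 0 := by
    cases k <;> cases j
    · exact (h rfl).elim
    · exact hpp
    · rw [real_inner_comm]; exact hpp
    · exact (h rfl).elim
  have : ‖p k - p j‖ ^ 2 = 2 := by rw [norm_sub_sq_real, hp, hp, h0]; norm_num
  have h1 := norm_nonneg (p k - p j)
  constructor <;> nlinarith

include hp hpp in
lemma pp_add {k j : Bool} (h : k ≠ j) : 14 / 10 ≤ ‖p k + p j‖ ∧ ‖p k + p j‖ ≤ 1415 / 1000 := by
  have h0 : ⟪p k, p j⟫ = 0 := by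
    cases k <;> cases j
    · exact (h rfl).elim
    · exact hpp
    · rw [real_inner_comm]; exact hpp
    · exact (h rfl).elim
  have : ‖p k + p j‖ ^ 2 = 2 := by rw [norm_add_sq_real, hp, hp, h0]; norm_num
  have h1 := norm_nonneg (p k + p j)
  constructor <;> nlinarith

include hp hpp in
lemma pp_add_ge (k j : Bool) : 14 / 10 ≤ ‖p k + p j‖ := by
  by_cases h : k = j
  · rw [h, ← two_smul ℝ, norm_smul, hp]; norm_num
  · exact (pp_add hp hpp h).1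

include hp hpp in
lemma pp_sub_le (k j : Bool) : ‖p k - p j‖ ≤ 1415 / 1000 := by
  by_cases h : k = j
  · rw [h, sub_self, norm_zero]; norm_num
  · exact (pp_sub hp hpp h).2

include hp B in
lemma y_near (k : Bool) {x : E} (hx : ‖x‖ ≤ 1 / 10 ^ 12) : ‖y k x - p k‖ ≤ 2 / 10 ^ 4 := by
  rw [(B k).hy x hx]
  exact yf_near (hp k) hx ((B k).hz x hx)

include B in
lemma z_near (k : Bool) {x : E} (hx : ‖x‖ ≤ 1 / 10 ^ 12) : ‖z k x - -p k‖ ≤ 2 / 10 ^ 4 := by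
  rw [sub_neg_eq_add]
  linarith [(B k).hz x hx]

omit [InnerProductSpace ℝ E] in
lemma near_dist {v w q r : E} (h1 : ‖v - q‖ ≤ 2 / 10 ^ 4) (h2 : ‖w - r‖ ≤ 2 / 10 ^ 4) :
    ‖q - r‖ - 4 / 10 ^ 4 ≤ ‖v - w‖ ∧ ‖v - w‖ ≤ ‖q - r‖ + 4 / 10 ^ 4 := by
  have e : ‖v - w - (q - r)‖ ≤ 4 / 10 ^ 4 := by
    have : v - w - (q - r) = (v - q) - (w - r) := by abel
    rw [this]
    linarith [norm_sub_le (v - q) (w - r)]
  have := norm_sub_norm_le (v - w) (q - r)
  have := norm_sub_norm_le (q - r) (v - w)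
  rw [norm_sub_rev (q - r) (v - w)] at this
  constructor <;> linarith

omit [InnerProductSpace ℝ E] in
lemma memA {x : E} : x ∈ Metric.closedBall (0 : E) (1 / 10 ^ 12) ↔ ‖x‖ ≤ 1 / 10 ^ 12 :=
  mem_closedBall_zero_iff

include hp B in
lemma hAY (k : Bool) (x : E) (hx : x ∈ Metric.closedBall (0 : E) (1 / 10 ^ 12)) :
    y k x ∉ Metric.closedBall (0 : E) (1 / 10 ^ 12) := by
  intro h
  have := norm_ge_of_near (hp k) (y_near hp B k (memA.1 hx))
  linarith [memA.1 h]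

include hp B in
lemma hAZ (k : Bool) (x : E) (hx : x ∈ Metric.closedBall (0 : E) (1 / 10 ^ 12)) :
    z k x ∉ Metric.closedBall (0 : E) (1 / 10 ^ 12) := by
  intro h
  have := norm_ge_of_near (by rw [norm_neg, hp k]) (z_near B k (memA.1 hx))
  linarith [memA.1 h]

include hp hpp B in
lemma hYZ (k j : Bool) (x : E) (hx : x ∈ Metric.closedBall (0 : E) (1 / 10 ^ 12)) (x' : E)
    (hx' : x' ∈ Metric.closedBall (0 : E) (1 / 10 ^ 12)) : y k x ≠ z j x' := by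
  intro h
  have := (near_dist (y_near hp B k (memA.1 hx)) (z_near B j (memA.1 hx'))).1
  rw [h, sub_self, norm_zero, sub_neg_eq_add] at this
  linarith [pp_add_ge hp hpp k j]

include hp hpp B in
lemma hYY (k j : Bool) (x : E) (hx : x ∈ Metric.closedBall (0 : E) (1 / 10 ^ 12)) (x' : E)
    (hx' : x' ∈ Metric.closedBall (0 : E) (1 / 10 ^ 12)) (h : y k x = y j x') : k = j := by
  by_contra hkj
  have := (near_dist (y_near hp B k (memA.1 hx)) (y_near hp B j (memA.1 hx'))).1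
  rw [h, sub_self, norm_zero] at this
  linarith [(pp_sub hp hpp hkj).1]

include hp hpp B in
lemma hZZ (k j : Bool) (x : E) (hx : x ∈ Metric.closedBall (0 : E) (1 / 10 ^ 12)) (x' : E)
    (hx' : x' ∈ Metric.closedBall (0 : E) (1 / 10 ^ 12)) (h : z k x = z j x') : k = j := by
  by_contra hkj
  have := (near_dist (z_near B k (memA.1 hx)) (z_near B j (memA.1 hx'))).1
  rw [h, sub_self, norm_zero, neg_sub_neg, norm_sub_rev] at this
  linarith [(pp_sub hp hpp hkj).1]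

lemma pot_A {x : E} (hx : x ∈ Metric.closedBall (0 : E) (1 / 10 ^ 12)) :
    pot p y z a x = u0 x := by
  rw [pot, if_pos hx]

include hp hpp B in
lemma pot_Y (k : Bool) {x : E} (hx : x ∈ Metric.closedBall (0 : E) (1 / 10 ^ 12)) :
    pot p y z a (y k x) = cr x (y k x) (z k x) - u0 x - um (p k) (z k x) := by
  rw [pot, if_neg (hAY hp B k x hx)]
  cases k
  · rw [if_pos (mem_image_of_mem _ hx), (B false).hay x (memA.1 hx)]
  · rw [if_neg, if_pos (mem_image_of_mem _ hx), (B true).hay x (memA.1 hx)]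
    rintro ⟨x', hx', h⟩
    exact Bool.false_ne_true (hYY hp hpp B _ _ x' hx' x hx h)

include hp hpp B in
lemma pot_Z (k : Bool) {x : E} (hx : x ∈ Metric.closedBall (0 : E) (1 / 10 ^ 12)) :
    pot p y z a (z k x) = um (p k) (z k x) := by
  have h1 : ∀ j, z k x ∉ y j '' Metric.closedBall (0 : E) (1 / 10 ^ 12) := by
    rintro j ⟨x', hx', h⟩
    exact hYZ hp hpp B j k x' hx' x hx h
  rw [pot, if_neg (hAZ hp B k x hx), if_neg (h1 _), if_neg (h1 _)]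
  cases k
  · rw [if_pos (mem_image_of_mem _ hx)]
  · rw [if_neg]
    rintro ⟨x', hx', h⟩
    exact Bool.false_ne_true (hZZ hp hpp B _ _ x' hx' x hx h)

include hp hpp B in
lemma pot_Y_bounds (k : Bool) {x : E} (hx : x ∈ Metric.closedBall (0 : E) (1 / 10 ^ 12)) :
    0 ≤ pot p y z a (y k x) ∧ pot p y z a (y k x) ≤ 26 / 100 := by
  rw [pot_Y hp hpp B k hx]
  have h1 := cr_bounds (hp k) (memA.1 hx) ((B k).hz x (memA.1 hx))
  rw [← (B k).hy x (memA.1 hx)] at h1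
  have h2 := u0_bounds (memA.1 hx)
  have h3 := um_bounds (hp k) ((B k).hz x (memA.1 hx))
  constructor <;> linarith [h1.1, h1.2, h2.1, h2.2, h3.1, h3.2]

include hp hpp B in
lemma pot_Z_bounds (k : Bool) {x : E} (hx : x ∈ Metric.closedBall (0 : E) (1 / 10 ^ 12)) :
    0 ≤ pot p y z a (z k x) ∧ pot p y z a (z k x) ≤ 26 / 100 := by
  rw [pot_Z hp hpp B k hx]
  have h3 := um_bounds (hp k) ((B k).hz x (memA.1 hx))
  constructor <;> linarith [h3.1, h3.2]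

/-- outer points -/
def Out (y z : Bool → E → E) (v : E) : Prop :=
  ∃ k, ∃ x ∈ Metric.closedBall (0 : E) (1 / 10 ^ 12), v = y k x ∨ v = z k x

omit [InnerProductSpace ℝ E] in
lemma sup_cases {v : E} (hv : v ∈ Sup (Metric.closedBall (0 : E) (1 / 10 ^ 12)) y z) :
    v ∈ Metric.closedBall (0 : E) (1 / 10 ^ 12) ∨ Out y z v := by
  rcases hv with h | ((⟨x, hx, rfl⟩ | ⟨x, hx, rfl⟩) | (⟨x, hx, rfl⟩ | ⟨x, hx, rfl⟩))
  · exact Or.inl h
  · exact Or.inr ⟨_, x, hx, Or.inl rfl⟩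
  · exact Or.inr ⟨_, x, hx, Or.inr rfl⟩
  · exact Or.inr ⟨_, x, hx, Or.inl rfl⟩
  · exact Or.inr ⟨_, x, hx, Or.inr rfl⟩

include hp hpp B in
lemma out_bounds {v : E} (hv : Out y z v) :
    0 ≤ pot p y z a v ∧ pot p y z a v ≤ 26 / 100 ∧ ‖v‖ ≤ 1001 / 1000 := by
  obtain ⟨k, x, hx, rfl | rfl⟩ := hv
  · refine ⟨(pot_Y_bounds hp hpp B k hx).1, (pot_Y_bounds hp hpp B k hx).2, ?_⟩
    linarith [norm_le_of_near (hp k) (y_near hp B k (memA.1 hx))]
  · refine ⟨(pot_Z_bounds hp hpp B k hx).1, (pot_Z_bounds hp hpp B k hx).2, ?_⟩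
    linarith [norm_le_of_near (by rw [norm_neg, hp k]) (z_near B k (memA.1 hx))]

lemma A_bounds {v : E} (hv : v ∈ Metric.closedBall (0 : E) (1 / 10 ^ 12)) :
    0 ≤ pot p y z a v ∧ pot p y z a v ≤ 2 ∧ ‖v‖ ≤ 1 / 10 ^ 12 := by
  rw [pot_A hv]
  have := u0_bounds (memA.1 hv)
  exact ⟨by linarith [this.1], this.2, memA.1 hv⟩

include hp hpp B in
lemma sup_bounds {v : E} (hv : v ∈ Sup (Metric.closedBall (0 : E) (1 / 10 ^ 12)) y z) :
    0 ≤ pot p y z a v ∧ pot p y z a v ≤ 2 ∧ ‖v‖ ≤ 1001 / 1000 := by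
  rcases sup_cases hv with h | h
  · have := A_bounds (p := p) (y := y) (z := z) (a := a) h
    exact ⟨this.1, this.2.1, by linarith [this.2.2]⟩
  · have := out_bounds hp hpp B h
    exact ⟨this.1, by linarith [this.2.1], this.2.2⟩

/-- the dichotomy for a triple -/
def Good (p : Bool → E) (y z a : Bool → E → E) (v₁ v₂ v₃ : E) : Prop :=
  ENNReal.ofReal (pot p y z a v₁) + ENNReal.ofReal (pot p y z a v₂)
      + ENNReal.ofReal (pot p y z a v₃) < ce v₁ v₂ v₃ ∨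
    (ENNReal.ofReal (pot p y z a v₁) + ENNReal.ofReal (pot p y z a v₂)
      + ENNReal.ofReal (pot p y z a v₃) = ce v₁ v₂ v₃ ∧
      Ct (Metric.closedBall (0 : E) (1 / 10 ^ 12)) y z v₁ v₂ v₃)

omit [InnerProductSpace ℝ E] in
lemma ce_swap12 (v₁ v₂ v₃ : E) : ce v₂ v₁ v₃ = ce v₁ v₂ v₃ := by
  simp only [ce, edist_comm v₂ v₁]; ring

omit [InnerProductSpace ℝ E] in
lemma ce_swap23 (v₁ v₂ v₃ : E) : ce v₁ v₃ v₂ = ce v₁ v₂ v₃ := by
  simp only [ce, edist_comm v₃ v₂]; ring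

lemma Good.swap12 {v₁ v₂ v₃ : E} (h : Good p y z a v₁ v₂ v₃) : Good p y z a v₂ v₁ v₃ := by
  unfold Good at h ⊢
  rw [ce_swap12, add_comm (ENNReal.ofReal (pot p y z a v₂))]
  refine h.imp id (And.imp id ?_)
  rintro ⟨k, x, hx, h⟩
  refine ⟨k, x, hx, ?_⟩
  tauto

lemma Good.swap23 {v₁ v₂ v₃ : E} (h : Good p y z a v₁ v₂ v₃) : Good p y z a v₁ v₃ v₂ := by
  unfold Good at h ⊢
  rw [ce_swap23, add_right_comm]
  refine h.imp id (And.imp id ?_)
  rintro ⟨k, x, hx, h⟩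
  refine ⟨k, x, hx, ?_⟩
  tauto

include hp hpp B in
lemma good_AA {v₁ v₂ v₃ : E} (h₁ : v₁ ∈ Metric.closedBall (0 : E) (1 / 10 ^ 12))
    (h₂ : v₂ ∈ Metric.closedBall (0 : E) (1 / 10 ^ 12))
    (h₃ : v₃ ∈ Sup (Metric.closedBall (0 : E) (1 / 10 ^ 12)) y z) : Good p y z a v₁ v₂ v₃ := by
  have b₁ := A_bounds (p := p) (y := y) (z := z) (a := a) h₁
  have b₂ := A_bounds (p := p) (y := y) (z := z) (a := a) h₂
  have b₃ := sup_bounds hp hpp B h₃
  left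
  refine lt_ce (r₁ := 1 / 10) (r₂ := 2) (r₃ := 2) b₁.1 b₂.1 b₃.1 (by norm_num) (by norm_num)
    (by norm_num) ?_ ?_ ?_ ?_
  · linarith [norm_sub_le v₁ v₂, b₁.2.2, b₂.2.2]
  · linarith [norm_sub_le v₁ v₃, b₁.2.2, b₃.2.2]
  · linarith [norm_sub_le v₂ v₃, b₂.2.2, b₃.2.2]
  · norm_num
    linarith [b₁.2.1, b₂.2.1, b₃.2.1]

include hp hpp B in
lemma good_OOO {v₁ v₂ v₃ : E} (h₁ : Out y z v₁) (h₂ : Out y z v₂) (h₃ : Out y z v₃) :
    Good p y z a v₁ v₂ v₃ := by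
  have b₁ := out_bounds hp hpp B h₁
  have b₂ := out_bounds hp hpp B h₂
  have b₃ := out_bounds hp hpp B h₃
  left
  refine lt_ce (r₁ := 3) (r₂ := 3) (r₃ := 3) b₁.1 b₂.1 b₃.1 (by norm_num) (by norm_num)
    (by norm_num) ?_ ?_ ?_ ?_
  · linarith [norm_sub_le v₁ v₂, b₁.2.2, b₂.2.2]
  · linarith [norm_sub_le v₁ v₃, b₁.2.2, b₃.2.2]
  · linarith [norm_sub_le v₂ v₃, b₂.2.2, b₃.2.2]
  · norm_num
    linarith [b₁.2.1, b₂.2.1, b₃.2.1]

include hp hpp B in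
lemma good_near {v₁ v₂ v₃ : E} (h₁ : v₁ ∈ Metric.closedBall (0 : E) (1 / 10 ^ 12))
    (h₂ : Out y z v₂) (h₃ : Out y z v₃) (h : ‖v₂ - v₃‖ ≤ 142 / 100) :
    Good p y z a v₁ v₂ v₃ := by
  have b₁ := A_bounds (p := p) (y := y) (z := z) (a := a) h₁
  have b₂ := out_bounds hp hpp B h₂
  have b₃ := out_bounds hp hpp B h₃
  left
  refine lt_ce (r₁ := 1002 / 1000) (r₂ := 1002 / 1000) (r₃ := 142 / 100) b₁.1 b₂.1 b₃.1
    (by norm_num) (by norm_num) (by norm_num) ?_ ?_ h ?_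
  · linarith [norm_sub_le v₁ v₂, b₁.2.2, b₂.2.2]
  · linarith [norm_sub_le v₁ v₃, b₁.2.2, b₃.2.2]
  · norm_num
    linarith [b₁.2.1, b₂.2.1, b₃.2.1]

include hp B in
lemma ce_AYZ (k : Bool) {x x' x'' : E} (hx : x ∈ Metric.closedBall (0 : E) (1 / 10 ^ 12))
    (hx' : x' ∈ Metric.closedBall (0 : E) (1 / 10 ^ 12))
    (hx'' : x'' ∈ Metric.closedBall (0 : E) (1 / 10 ^ 12)) :
    ce x' (y k x) (z k x'') = ENNReal.ofReal (cr x' (y k x) (z k x'')) := by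
  have h0 : ‖x' - 0‖ ≤ 2 / 10 ^ 4 := by rw [sub_zero]; linarith [memA.1 hx']
  have n1 := (near_dist h0 (y_near hp B k (memA.1 hx))).1
  have n2 := (near_dist h0 (z_near B k (memA.1 hx''))).1
  have n3 := (near_dist (y_near hp B k (memA.1 hx)) (z_near B k (memA.1 hx''))).1
  rw [zero_sub, norm_neg, hp] at n1
  rw [zero_sub, norm_neg, norm_neg, hp] at n2
  rw [sub_neg_eq_add, ← two_smul ℝ, norm_smul, hp] at n3
  norm_num at n3
  exact ce_eq (by linarith) (by linarith) (by linarith)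

include hp hpp B in
lemma contact_eq (k : Bool) (x : E) (hx : x ∈ Metric.closedBall (0 : E) (1 / 10 ^ 12)) :
    ce x (y k x) (z k x) = ENNReal.ofReal (pot p y z a x) + ENNReal.ofReal (pot p y z a (y k x))
      + ENNReal.ofReal (pot p y z a (z k x)) := by
  have b₁ := (A_bounds (p := p) (y := y) (z := z) (a := a) hx).1
  have b₂ := (pot_Y_bounds hp hpp B k hx).1
  have b₃ := (pot_Z_bounds hp hpp B k hx).1
  rw [ce_AYZ hp B k hx hx hx, ← ENNReal.ofReal_add b₁ b₂,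
    ← ENNReal.ofReal_add (add_nonneg b₁ b₂) b₃, pot_A hx, pot_Y hp hpp B k hx, pot_Z hp hpp B k hx]
  congr 1
  ring

include hp hpp B in
lemma good_main (k : Bool) {x x' x'' : E} (hx : x ∈ Metric.closedBall (0 : E) (1 / 10 ^ 12))
    (hx' : x' ∈ Metric.closedBall (0 : E) (1 / 10 ^ 12))
    (hx'' : x'' ∈ Metric.closedBall (0 : E) (1 / 10 ^ 12)) :
    Good p y z a x' (y k x) (z k x'') := by
  by_cases h : x' = x ∧ z k x'' = z k x
  · right
    rw [h.1, h.2]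
    exact ⟨(contact_eq hp hpp B k x hx).symm, k, x, hx, Or.inl ⟨rfl, rfl, rfl⟩⟩
  · left
    have b₁ := (A_bounds (p := p) (y := y) (z := z) (a := a) hx').1
    have b₂ := (pot_Y_bounds hp hpp B k hx).1
    have b₃ := (pot_Z_bounds hp hpp B k hx'').1
    have hm := main_ineq (hp k) (memA.1 hx) ((B k).hz x (memA.1 hx)) (memA.1 hx')
      ((B k).hz x'' (memA.1 hx'')) ((B k).fix x (memA.1 hx))
    rw [← (B k).hy x (memA.1 hx)] at hm
    have hpos : 0 < ‖x' - x‖ ^ 2 + ‖z k x'' - z k x‖ ^ 2 := by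
      rcases not_and_or.1 h with h | h
      · have : 0 < ‖x' - x‖ := norm_pos_iff.2 (sub_ne_zero.2 h)
        positivity
      · have : 0 < ‖z k x'' - z k x‖ := norm_pos_iff.2 (sub_ne_zero.2 h)
        positivity
    have hlt : pot p y z a x' + pot p y z a (y k x) + pot p y z a (z k x'')
        < cr x' (y k x) (z k x'') := by
      rw [pot_A hx', pot_Y hp hpp B k hx, pot_Z hp hpp B k hx'']
      linarith
    rw [ce_AYZ hp B k hx hx' hx'', ← ENNReal.ofReal_add b₁ b₂,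
      ← ENNReal.ofReal_add (add_nonneg b₁ b₂) b₃]
    exact (ENNReal.ofReal_lt_ofReal_iff (by linarith)).2 hlt

include hp hpp B in
lemma good_AOO {v₁ v₂ v₃ : E} (h₁ : v₁ ∈ Metric.closedBall (0 : E) (1 / 10 ^ 12))
    (h₂ : Out y z v₂) (h₃ : Out y z v₃) : Good p y z a v₁ v₂ v₃ := by
  have h₂' := h₂
  have h₃' := h₃
  obtain ⟨k, x, hx, rfl | rfl⟩ := h₂ <;> obtain ⟨j, x', hx', rfl | rfl⟩ := h₃
  · refine good_near hp hpp B h₁ h₂' h₃' ?_
    have := (near_dist (y_near hp B k (memA.1 hx)) (y_near hp B j (memA.1 hx'))).2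
    linarith [pp_sub_le hp hpp k j]
  · by_cases hkj : k = j
    · subst hkj
      exact good_main hp hpp B k hx h₁ hx'
    · refine good_near hp hpp B h₁ h₂' h₃' ?_
      have := (near_dist (y_near hp B k (memA.1 hx)) (z_near B j (memA.1 hx'))).2
      rw [sub_neg_eq_add] at this
      linarith [(pp_add hp hpp hkj).2]
  · by_cases hkj : k = j
    · subst hkj
      exact (good_main hp hpp B k hx' h₁ hx).swap23
    · refine good_near hp hpp B h₁ h₂' h₃' ?_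
      have := (near_dist (y_near hp B j (memA.1 hx')) (z_near B k (memA.1 hx))).2
      rw [sub_neg_eq_add, norm_sub_rev] at this
      linarith [(pp_add hp hpp (Ne.symm hkj)).2]
  · refine good_near hp hpp B h₁ h₂' h₃' ?_
    have := (near_dist (z_near B k (memA.1 hx)) (z_near B j (memA.1 hx'))).2
    rw [neg_sub_neg] at this
    linarith [pp_sub_le hp hpp j k]

include hp hpp B in
lemma good_all {v₁ v₂ v₃ : E} (h₁ : v₁ ∈ Sup (Metric.closedBall (0 : E) (1 / 10 ^ 12)) y z)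
    (h₂ : v₂ ∈ Sup (Metric.closedBall (0 : E) (1 / 10 ^ 12)) y z)
    (h₃ : v₃ ∈ Sup (Metric.closedBall (0 : E) (1 / 10 ^ 12)) y z) : Good p y z a v₁ v₂ v₃ := by
  rcases sup_cases h₁ with a₁ | a₁ <;> rcases sup_cases h₂ with a₂ | a₂
  · exact good_AA hp hpp B a₁ a₂ h₃
  · rcases sup_cases h₃ with a₃ | a₃
    · exact (good_AA hp hpp B a₁ a₃ h₂).swap23
    · exact good_AOO hp hpp B a₁ a₂ a₃
  · rcases sup_cases h₃ with a₃ | a₃
    · exact (good_AA hp hpp B a₂ a₃ h₁).swap23.swap12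
    · exact (good_AOO hp hpp B a₂ a₁ a₃).swap12
  · rcases sup_cases h₃ with a₃ | a₃
    · exact (good_AOO hp hpp B a₃ a₁ a₂).swap12.swap23
    · exact good_OOO hp hpp B a₁ a₂ a₃

end

end Vale.Agent.P121
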