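import Vale.Agent.P121.Force

/-! The local construction: for a unit vector `p`, the contact graph `x ↦ (y x, z x)`. -/

namespace Vale.Agent.P121

open scoped RealInnerProductSpace

variable {E : Type*} [NormedAddCommGroup E] [InnerProductSpace ℝ E]

noncomputable def wf (x z : E) : E := -((10 ^ 6 : ℝ) • x) - frc (x - z)

noncomputable def yf (x z : E) : E := x - ifrc (wf x z)

noncomputable def psi (p x z : E) : E :=
  -p + (1 / 10 ^ 6 : ℝ) • ((5 / 4 : ℝ) • p - frc (z - x) - frc (z - yf x z))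

lemma norm_ge_of_near {v q : E} {c e : ℝ} (hq : ‖q‖ = c) (h : ‖v - q‖ ≤ e) : c - e ≤ ‖v‖ := by
  have := norm_sub_norm_le q v
  rw [norm_sub_rev] at this
  linarith

lemma norm_le_of_near {v q : E} {c e : ℝ} (hq : ‖q‖ = c) (h : ‖v - q‖ ≤ e) : ‖v‖ ≤ c + e := by
  have := norm_sub_norm_le v q
  linarith

section
variable {p x z x' z' : E} (hp : ‖p‖ = 1) (hx : ‖x‖ ≤ 1 / 10 ^ 12) (hz : ‖z + p‖ ≤ 1 / 10 ^ 8)
  (hx' : ‖x'‖ ≤ 1 / 10 ^ 12) (hz' : ‖z' + p‖ ≤ 1 / 10 ^ 8)

include hx hz in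
lemma xz_near : ‖x - z - p‖ ≤ 2 / 10 ^ 8 := by
  have : x - z - p = x - (z + p) := by abel
  rw [this]
  have := norm_sub_le x (z + p)
  linarith

include hp hx hz in
lemma xz_ge : 9 / 10 ≤ ‖x - z‖ := by
  have := norm_ge_of_near hp (xz_near hx hz)
  linarith

include hp hx hz in
lemma wf_near : ‖wf x z - p‖ ≤ 2 / 10 ^ 6 := by
  have h1 := frc_lip (r := x - z) (s := p) (by linarith [xz_ge hp hx hz]) (by linarith)
  have h2 := xz_near hx hz
  have : wf x z - p = -((10 ^ 6 : ℝ) • x) - (frc (x - z) - frc p) := by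
    rw [wf, frc_unit hp]; abel
  rw [this]
  refine (norm_sub_le _ _).trans ?_
  rw [norm_neg, norm_smul, Real.norm_eq_abs, abs_of_pos (by positivity)]
  linarith

include hp hx hz in
lemma wf_ge : 1 / 9 ≤ ‖wf x z‖ := by
  have := norm_ge_of_near hp (wf_near hp hx hz)
  linarith

include hp hx hz in
lemma yf_near : ‖yf x z - p‖ ≤ 2 / 10 ^ 4 := by
  have h1 := ifrc_lip (wf_ge hp hx hz) (w := p) (by linarith)
  have h2 := wf_near hp hx hz
  have : yf x z - p = x - (ifrc (wf x z) - ifrc p) := by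
    rw [yf, ifrc_unit hp]; abel
  rw [this]
  refine (norm_sub_le _ _).trans ?_
  linarith

include hp hx hz in
lemma zy_near : ‖z - yf x z - -((2 : ℝ) • p)‖ ≤ 3 / 10 ^ 4 := by
  have h2 := yf_near hp hx hz
  have : z - yf x z - -((2 : ℝ) • p) = (z + p) - (yf x z - p) := by
    rw [two_smul]; abel
  rw [this]
  refine (norm_sub_le _ _).trans ?_
  linarith

include hp in
lemma norm_two_unit : ‖-((2 : ℝ) • p)‖ = 2 := by
  rw [norm_neg, norm_smul, hp]; norm_num

include hp hx hz in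
lemma zy_ge : 9 / 10 ≤ ‖z - yf x z‖ := by
  have := norm_ge_of_near (norm_two_unit hp) (zy_near hp hx hz)
  linarith

include hp hx hz in
lemma psi_near : ‖psi p x z + p‖ ≤ 1 / 10 ^ 8 := by
  have h1 := frc_lip (r := x - z) (s := p) (by linarith [xz_ge hp hx hz]) (by linarith)
  have h2 := xz_near hx hz
  have h3 := frc_lip (r := z - yf x z) (s := -((2 : ℝ) • p)) (by linarith [zy_ge hp hx hz])
    (by rw [norm_two_unit hp]; norm_num)
  have h4 := zy_near hp hx hz
  have e1 : frc (z - x) = -frc (x - z) := by rw [← frc_neg, neg_sub]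
  have : psi p x z + p = (1 / 10 ^ 6 : ℝ) •
      ((frc (x - z) - frc p) - (frc (z - yf x z) - frc (-((2 : ℝ) • p)))) := by
    rw [psi, frc_unit hp, frc_two_unit hp, e1]
    have : (5 / 4 : ℝ) • p = p + (1 / 4 : ℝ) • p := by
      rw [show (5 / 4 : ℝ) = 1 + 1 / 4 by norm_num, add_smul, one_smul]
    rw [this]
    abel_nf
  rw [this, norm_smul, Real.norm_eq_abs, abs_of_pos (by positivity)]
  have := norm_sub_le (frc (x - z) - frc p) (frc (z - yf x z) - frc (-((2 : ℝ) • p)))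
  linarith

include hp hx hz hx' hz' in
lemma frc_xz_lip : ‖frc (x - z) - frc (x' - z')‖ ≤ 32 * (‖x - x'‖ + ‖z - z'‖) := by
  have h1 := frc_lip (r := x - z) (s := x' - z') (by linarith [xz_ge hp hx hz])
    (by linarith [xz_ge hp hx' hz'])
  have : x - z - (x' - z') = (x - x') - (z - z') := by abel
  rw [this] at h1
  have := norm_sub_le (x - x') (z - z')
  linarith

include hp hx hz hx' hz' in
lemma yf_lip : ‖yf x z - yf x' z'‖ ≤ 82 * 10 ^ 6 * ‖x - x'‖ + 2592 * ‖z - z'‖ := by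
  have h1 := frc_xz_lip hp hx hz hx' hz'
  have h2 := ifrc_lip (wf_ge hp hx hz) (wf_ge hp hx' hz')
  have h3 : ‖wf x z - wf x' z'‖ ≤ 10 ^ 6 * ‖x - x'‖ + 32 * (‖x - x'‖ + ‖z - z'‖) := by
    have : wf x z - wf x' z' = -((10 ^ 6 : ℝ) • (x - x')) - (frc (x - z) - frc (x' - z')) := by
      rw [wf, wf, smul_sub]; abel
    rw [this]
    refine (norm_sub_le _ _).trans ?_
    rw [norm_neg, norm_smul, Real.norm_eq_abs, abs_of_pos (by positivity)]
    linarith
  have : yf x z - yf x' z' = (x - x') - (ifrc (wf x z) - ifrc (wf x' z')) := by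
    rw [yf, yf]; abel
  rw [this]
  refine (norm_sub_le _ _).trans ?_
  have := norm_nonneg (x - x')
  linarith

include hp hx hz hx' hz' in
lemma frc_zy_lip : ‖frc (z - yf x z) - frc (z' - yf x' z')‖
    ≤ 32 * (‖z - z'‖ + ‖yf x z - yf x' z'‖) := by
  have h1 := frc_lip (r := z - yf x z) (s := z' - yf x' z') (by linarith [zy_ge hp hx hz])
    (by linarith [zy_ge hp hx' hz'])
  have : z - yf x z - (z' - yf x' z') = (z - z') - (yf x z - yf x' z') := by abel
  rw [this] at h1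
  have := norm_sub_le (z - z') (yf x z - yf x' z')
  linarith

include hp hx hz hx' hz' in
lemma psi_lip : ‖psi p x z - psi p x' z'‖ ≤ 3000 * ‖x - x'‖ + 1 / 10 * ‖z - z'‖ := by
  have h1 := frc_xz_lip hp hx hz hx' hz'
  have h2 := frc_zy_lip hp hx hz hx' hz'
  have h3 := yf_lip hp hx hz hx' hz'
  have e1 : frc (z - x) = -frc (x - z) := by rw [← frc_neg, neg_sub]
  have e2 : frc (z' - x') = -frc (x' - z') := by rw [← frc_neg, neg_sub]
  have : psi p x z - psi p x' z' = (1 / 10 ^ 6 : ℝ) •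
      ((frc (x - z) - frc (x' - z')) - (frc (z - yf x z) - frc (z' - yf x' z'))) := by
    rw [psi, psi, e1, e2]
    simp only [smul_sub, smul_neg]
    abel
  rw [this, norm_smul, Real.norm_eq_abs, abs_of_pos (by positivity)]
  have := norm_sub_le (frc (x - z) - frc (x' - z')) (frc (z - yf x z) - frc (z' - yf x' z'))
  have := norm_nonneg (x - x')
  have := norm_nonneg (z - z')
  linarith

include hp hx in
lemma exists_fixed [CompleteSpace E] : ∃ z : E, ‖z + p‖ ≤ 1 / 10 ^ 8 ∧ psi p x z = z := by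
  have hmem : ∀ v : E, v ∈ Metric.closedBall (-p) (1 / 10 ^ 8 : ℝ) ↔ ‖v + p‖ ≤ 1 / 10 ^ 8 := by
    intro v
    rw [Metric.mem_closedBall, dist_eq_norm, sub_neg_eq_add]
  have hmaps : Set.MapsTo (psi p x) (Metric.closedBall (-p) (1 / 10 ^ 8 : ℝ))
      (Metric.closedBall (-p) (1 / 10 ^ 8 : ℝ)) := by
    intro v hv
    exact (hmem _).2 (psi_near hp hx ((hmem _).1 hv))
  have hc : ContractingWith (1 / 10) (hmaps.restrict _ _ _) := by
    refine ⟨by norm_num, LipschitzWith.of_dist_le_mul fun a b => ?_⟩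
    have := psi_lip hp hx ((hmem _).1 a.2) hx ((hmem _).1 b.2)
    rw [Subtype.dist_eq, Subtype.dist_eq, dist_eq_norm, dist_eq_norm]
    simpa using this
  obtain ⟨v, hv, hfix, -⟩ := ContractingWith.exists_fixedPoint'
    (Metric.isClosed_closedBall.isComplete) hmaps hc (x := -p)
    (Metric.mem_closedBall_self (by positivity)) (edist_ne_top _ _)
  exact ⟨v, (hmem _).1 hv, hfix⟩

include hp hx hz in
lemma eq_one : frc (x - yf x z) + frc (x - z) = -((10 ^ 6 : ℝ) • x) := by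
  have h : wf x z ≠ 0 := by
    intro h
    have := wf_ge hp hx hz
    rw [h, norm_zero] at this
    linarith
  rw [yf, sub_sub_cancel, frc_ifrc h, wf]
  abel

lemma eq_two (h : psi p x z = z) :
    frc (z - yf x z) - frc (x - z) = (5 / 4 : ℝ) • p - (10 ^ 6 : ℝ) • (z + p) := by
  have e1 : frc (z - x) = -frc (x - z) := by rw [← frc_neg, neg_sub]
  have h2 : z + p = (1 / 10 ^ 6 : ℝ) • ((5 / 4 : ℝ) • p - frc (z - x) - frc (z - yf x z)) := by
    conv_lhs => rw [← h, psi]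
    abel
  rw [h2, smul_smul, e1]
  norm_num
  abel

include hp hx hz in
lemma xy_near : ‖x - yf x z - -p‖ ≤ 3 / 10 ^ 4 := by
  have h2 := yf_near hp hx hz
  have : x - yf x z - -p = x - (yf x z - p) := by abel
  rw [this]
  refine (norm_sub_le _ _).trans ?_
  linarith

include hp hx hz in
lemma xy_ge : 9 / 10 ≤ ‖x - yf x z‖ := by
  have := norm_ge_of_near (by rw [norm_neg, hp]) (xy_near hp hx hz)
  linarith

include hp hx hz hx' hz' in
lemma inv_y (h : psi p x z = z) (h' : psi p x' z' = z') :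
    ‖x - x'‖ + ‖z - z'‖ ≤ 1 / 10 ^ 4 * ‖yf x z - yf x' z'‖ := by
  have h1 := frc_xz_lip hp hx hz hx' hz'
  have h2 := frc_zy_lip hp hx hz hx' hz'
  have h3 : ‖frc (x - yf x z) - frc (x' - yf x' z')‖
      ≤ 32 * (‖x - x'‖ + ‖yf x z - yf x' z'‖) := by
    have h1 := frc_lip (r := x - yf x z) (s := x' - yf x' z') (by linarith [xy_ge hp hx hz])
      (by linarith [xy_ge hp hx' hz'])
    have : x - yf x z - (x' - yf x' z') = (x - x') - (yf x z - yf x' z') := by abel
    rw [this] at h1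
    have := norm_sub_le (x - x') (yf x z - yf x' z')
    linarith
  have e1 : (10 ^ 6 : ℝ) • (x - x') = -((frc (x - yf x z) - frc (x' - yf x' z'))
      + (frc (x - z) - frc (x' - z'))) := by
    have a1 := eq_one hp hx hz
    have a2 := eq_one hp hx' hz'
    rw [smul_sub, ← neg_neg ((10 ^ 6 : ℝ) • x), ← neg_neg ((10 ^ 6 : ℝ) • x'), ← a1, ← a2]
    abel
  have e2 : (10 ^ 6 : ℝ) • (z - z') = (frc (x - z) - frc (x' - z'))
      - (frc (z - yf x z) - frc (z' - yf x' z')) := by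
    have a1 := eq_two h
    have a2 := eq_two h'
    have : (10 ^ 6 : ℝ) • (z - z') = ((5 / 4 : ℝ) • p - (10 ^ 6 : ℝ) • (z' + p))
        - ((5 / 4 : ℝ) • p - (10 ^ 6 : ℝ) • (z + p)) := by
      rw [smul_sub, smul_add, smul_add]; abel
    rw [this, ← a1, ← a2]
    abel
  have n1 := congrArg norm e1
  have n2 := congrArg norm e2
  rw [norm_smul, Real.norm_eq_abs, abs_of_pos (by positivity)] at n1 n2
  rw [norm_neg] at n1
  have := norm_add_le (frc (x - yf x z) - frc (x' - yf x' z')) (frc (x - z) - frc (x' - z'))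
  have := norm_sub_le (frc (x - z) - frc (x' - z')) (frc (z - yf x z) - frc (z' - yf x' z'))
  have := norm_nonneg (x - x')
  have := norm_nonneg (z - z')
  have := norm_nonneg (yf x z - yf x' z')
  linarith

include hp hx hz in
lemma frc_zy_ge : 1 / 9 ≤ ‖frc (z - yf x z)‖ := by
  have h1 := zy_ge hp hx hz
  have h2 := norm_le_of_near (norm_two_unit hp) (zy_near hp hx hz)
  have h0 : z - yf x z ≠ 0 := by
    intro h; rw [h, norm_zero] at h1; linarith
  rw [norm_frc h0, le_inv_comm₀ (by norm_num) (by positivity)]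
  nlinarith

include hp hx hz hx' hz' in
lemma inv_z (h : psi p x z = z) (h' : psi p x' z' = z') :
    ‖x - x'‖ ≤ 10 ^ 5 * ‖z - z'‖ := by
  have h0 : ∀ v : E, 9 / 10 ≤ ‖v‖ → v ≠ 0 := by
    intro v hv h; rw [h, norm_zero] at hv; linarith
  have h1 := frc_xz_lip hp hx hz hx' hz'
  have h2 := ifrc_lip (frc_zy_ge hp hx hz) (frc_zy_ge hp hx' hz')
  rw [ifrc_frc (h0 _ (zy_ge hp hx hz)), ifrc_frc (h0 _ (zy_ge hp hx' hz'))] at h2
  have h3 := inv_y hp hx hz hx' hz' h h'
  have e2 : frc (z - yf x z) - frc (z' - yf x' z') =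
      (frc (x - z) - frc (x' - z')) - (10 ^ 6 : ℝ) • (z - z') := by
    have a1 := eq_two h
    have a2 := eq_two h'
    have : (10 ^ 6 : ℝ) • (z - z') = ((5 / 4 : ℝ) • p - (10 ^ 6 : ℝ) • (z' + p))
        - ((5 / 4 : ℝ) • p - (10 ^ 6 : ℝ) • (z + p)) := by
      rw [smul_sub, smul_add, smul_add]; abel
    rw [this, ← a1, ← a2]
    abel
  have n2 := norm_sub_le (frc (x - z) - frc (x' - z')) ((10 ^ 6 : ℝ) • (z - z'))
  rw [← e2, norm_smul, Real.norm_eq_abs, abs_of_pos (by positivity)] at n2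
  have e3 : yf x z - yf x' z' = (z - z') - (z - yf x z - (z' - yf x' z')) := by abel
  have n3 := norm_sub_le (z - z') (z - yf x z - (z' - yf x' z'))
  rw [← e3] at n3
  have := norm_nonneg (x - x')
  have := norm_nonneg (z - z')
  have := norm_nonneg (yf x z - yf x' z')
  linarith

end

/-- The real-valued Coulomb cost. -/
noncomputable def cr (a b c : E) : ℝ := ‖a - b‖⁻¹ + ‖a - c‖⁻¹ + ‖b - c‖⁻¹

/-- The potential on the central cluster. -/
noncomputable def u0 (x : E) : ℝ := 2 - 10 ^ 6 / 2 * ‖x‖ ^ 2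

/-- The potential on the cluster near `-p`. -/
noncomputable def um (p z : E) : ℝ := 1 / 4 + 5 / 4 * ⟪p, z + p⟫ - 10 ^ 6 / 2 * ‖z + p‖ ^ 2

lemma main_ineq {p x z x' z' : E} (hp : ‖p‖ = 1) (hx : ‖x‖ ≤ 1 / 10 ^ 12)
    (hz : ‖z + p‖ ≤ 1 / 10 ^ 8) (hx' : ‖x'‖ ≤ 1 / 10 ^ 12) (hz' : ‖z' + p‖ ≤ 1 / 10 ^ 8)
    (h : psi p x z = z) :
    cr x (yf x z) z - u0 x - um p z + ‖x' - x‖ ^ 2 + ‖z' - z‖ ^ 2
      ≤ cr x' (yf x z) z' - u0 x' - um p z' := by
  have h0 : ∀ v : E, 1 / 2 ≤ ‖v‖ → v ≠ 0 := by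
    intro v hv h; rw [h, norm_zero] at hv; linarith
  have hy := yf_near hp hx hz
  set y := yf x z with hydef
  have n1 : 1 / 2 ≤ ‖x - y + (x' - x)‖ := by
    have : ‖x - y + (x' - x) - -p‖ ≤ 1 / 2 := by
      have : x - y + (x' - x) - -p = x' - (y - p) := by abel
      rw [this]
      have := norm_sub_le x' (y - p)
      linarith
    have := norm_ge_of_near (by rw [norm_neg, hp]) this
    linarith
  have n2 : 1 / 2 ≤ ‖x - z + ((x' - x) - (z' - z))‖ := by
    have : x - z + ((x' - x) - (z' - z)) = x' - z' := by abel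
    rw [this]
    linarith [xz_ge hp hx' hz']
  have n3 : 1 / 2 ≤ ‖z - y + (z' - z)‖ := by
    have : ‖z - y + (z' - z) - -((2 : ℝ) • p)‖ ≤ 1 / 2 := by
      have : z - y + (z' - z) - -((2 : ℝ) • p) = (z' + p) - (y - p) := by rw [two_smul]; abel
      rw [this]
      have := norm_sub_le (z' + p) (y - p)
      linarith
    have := norm_ge_of_near (norm_two_unit hp) this
    linarith
  have s1 := semiconvex (xy_ge hp hx hz) (h0 _ n1)
  have s2 := semiconvex (xz_ge hp hx hz) (h0 _ n2)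
  have s3 := semiconvex (zy_ge hp hx hz) (h0 _ n3)
  rw [← hydef] at s1 s3
  have r1 : x - y + (x' - x) = x' - y := by abel
  have r2 : x - z + ((x' - x) - (z' - z)) = x' - z' := by abel
  have r3 : z - y + (z' - z) = z' - y := by abel
  rw [r1] at s1
  rw [r2, inner_sub_right] at s2
  rw [r3, norm_sub_rev z y, norm_sub_rev z' y] at s3
  have a1 := congrArg (fun v => ⟪v, x' - x⟫) (eq_one hp hx hz)
  have a2 := congrArg (fun v => ⟪v, z' - z⟫) (eq_two h)
  simp only [inner_add_left, inner_sub_left, inner_neg_left, real_inner_smul_left,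
    ← hydef] at a1 a2
  have q1 : ‖x'‖ ^ 2 = ‖x‖ ^ 2 + 2 * ⟪x, x' - x⟫ + ‖x' - x‖ ^ 2 := by
    rw [← norm_add_sq_real]; congr 2; abel
  have q2 : ‖z' + p‖ ^ 2 = ‖z + p‖ ^ 2 + 2 * ⟪z + p, z' - z⟫ + ‖z' - z‖ ^ 2 := by
    rw [← norm_add_sq_real]; congr 2; abel
  have q3 : ⟪p, z' + p⟫ = ⟪p, z + p⟫ + ⟪p, z' - z⟫ := by
    rw [← inner_add_right]; congr 1; abel
  have q4 : ‖(x' - x) - (z' - z)‖ ^ 2 ≤ 2 * ‖x' - x‖ ^ 2 + 2 * ‖z' - z‖ ^ 2 := by
    have := norm_sub_le (x' - x) (z' - z)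
    have h5 := norm_nonneg ((x' - x) - (z' - z))
    nlinarith [sq_nonneg (‖x' - x‖ - ‖z' - z‖)]
  rw [inner_add_left] at q2
  simp only [cr, u0, um]
  rw [q1, q2, q3]
  have := sq_nonneg ‖x' - x‖
  have := sq_nonneg ‖z' - z‖
  linarith

end Vale.Agent.P121
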