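import Vale.Agent.P121.Build

/-! The counterexample in a Euclidean space of dimension at least two. -/

namespace Vale.Agent.P121

open MeasureTheory Set
open scoped RealInnerProductSpace ENNReal NNReal

variable {E : Type*} [NormedAddCommGroup E] [InnerProductSpace ℝ E] [FiniteDimensional ℝ E]
  [MeasurableSpace E] [BorelSpace E]

lemma measurable_ce : Measurable fun p : E × E × E => ce p.1 p.2.1 p.2.2 := by
  unfold ce
  fun_prop

lemma lip_image (ν : Measure E) [ν.IsAddHaarMeasure] {a : E → E} {K : ℝ≥0}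
    (ha : LipschitzWith K a) : ∃ C : ℝ≥0, ∀ s, ν (a '' s) ≤ C * ν s := by
  refine ⟨K ^ (Module.finrank ℝ E), fun s => ?_⟩
  have h := Measure.isAddLeftInvariant_eq_smul ν (μH[Module.finrank ℝ E] : Measure E)
  have h2 := ha.hausdorffMeasure_image_le (d := (Module.finrank ℝ E : ℝ)) (by positivity) s
  rw [ENNReal.rpow_natCast] at h2
  rw [h]
  simp only [Measure.smul_apply, ENNReal.smul_def, smul_eq_mul, ENNReal.coe_pow]
  calc _ ≤ _ := mul_le_mul_right h2 _
    _ = _ := by ring

section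
variable {p : Bool → E} {y z a b : Bool → E → E} (hp : ∀ k, ‖p k‖ = 1)
  (hpp : ⟪p false, p true⟫ = 0) (B : ∀ k, Branch (p k) (y k) (z k) (a k) (b k))

include B in
lemma measurable_pot : Measurable (pot p y z a) := by
  have hA : IsCompact (Metric.closedBall (0 : E) (1 / 10 ^ 12)) := isCompact_closedBall _ _
  have ha : ∀ k, Continuous (a k) := fun k => (B k).la.elim fun _ h => h.continuous
  have hz : ∀ k, Continuous (z k) := fun k => (B k).cz
  have h0 : Measurable (u0 : E → ℝ) := by unfold u0; fun_prop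
  have hm : ∀ q : E, Measurable (um q) := by intro q; unfold um; fun_prop
  have hup : ∀ k, Measurable fun v =>
      cr (a k v) v (z k (a k v)) - u0 (a k v) - um (p k) (z k (a k v)) := by
    intro k
    have h1 := (ha k).measurable
    have h2 := (hz k).measurable
    refine Measurable.sub (Measurable.sub ?_ (h0.comp h1)) ((hm _).comp (h2.comp h1))
    unfold cr
    fun_prop
  unfold pot
  refine Measurable.ite hA.measurableSet h0 ?_
  refine Measurable.ite (hA.image (B _).cy).measurableSet (hup _) ?_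
  refine Measurable.ite (hA.image (B _).cy).measurableSet (hup _) ?_
  exact Measurable.ite (hA.image (B _).cz).measurableSet (hm _) (hm _)

include hp hpp B in
lemma data (m : Measure E) (hm : ∀ᵐ x ∂m, x ∈ Metric.closedBall (0 : E) (1 / 10 ^ 12)) :
    Data ce m (Metric.closedBall (0 : E) (1 / 10 ^ 12)) y z a b
      (fun v => ENNReal.ofReal (pot p y z a v)) where
  hc := measurable_ce
  hcyc := fun v₁ v₂ v₃ => by rw [ce_swap23 v₂ v₁ v₃, ce_swap12]
  hA := (isCompact_closedBall _ _).measurableSet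
  hmA := hm
  hy := fun k => (B k).cy.measurable
  hz := fun k => (B k).cz.measurable
  ha := fun k => (B k).la.elim fun _ h => h.continuous.measurable
  hb := fun k => (B k).lb.elim fun _ h => h.continuous.measurable
  hY := fun k => ((isCompact_closedBall _ _).image (B k).cy).measurableSet
  hZ := fun k => ((isCompact_closedBall _ _).image (B k).cz).measurableSet
  hay := fun k x hx => (B k).hay x (memA.1 hx)
  hbz := fun k x hx => (B k).hbz x (memA.1 hx)
  hAY := hAY hp B
  hAZ := hAZ hp B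
  hYZ := hYZ hp hpp B
  hYY := hYY hp hpp B
  hZZ := hZZ hp hpp B
  hu := (measurable_pot B).ennreal_ofReal
  hu3 := fun v hv => by
    have := (sup_bounds hp hpp B hv).2.1
    exact ENNReal.ofReal_le_of_le_toReal (by norm_num; linarith)
  hle := fun _ h₁ _ h₂ _ h₃ => (good_all hp hpp B h₁ h₂ h₃).elim le_of_lt fun h => h.1.le
  heq := fun _ h₁ _ h₂ _ h₃ e => (good_all hp hpp B h₁ h₂ h₃).elim (fun h => (h.ne e).elim)
    fun h => h.2
  hct := contact_eq hp hpp B

end

lemma map_le {ν m : Measure E} [ν.IsAddHaarMeasure] {A : Set E} {C₀ : ℝ≥0}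
    (hm : ∀ᵐ x ∂m, x ∈ A) (hle : m ≤ C₀ • ν) {f a : E → E} (hf : Measurable f)
    (ha : ∃ K, LipschitzWith K a) (hinv : ∀ x ∈ A, a (f x) = x) :
    ∃ C : ℝ≥0, m.map f ≤ C • ν := by
  obtain ⟨K, hK⟩ := ha
  obtain ⟨C, hC⟩ := lip_image ν hK
  refine ⟨C₀ * C, Measure.le_iff.2 fun s hs => ?_⟩
  rw [Measure.map_apply hf hs]
  calc m (f ⁻¹' s) ≤ m (a '' s) := by
        apply measure_mono_ae
        filter_upwards [hm] with x hx hs using ⟨f x, hs, hinv x hx⟩
    _ ≤ (C₀ • ν) (a '' s) := hle _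
    _ = C₀ * ν (a '' s) := by rw [Measure.smul_apply, ENNReal.smul_def, smul_eq_mul]
    _ ≤ C₀ * (C * ν s) := mul_le_mul_right (hC s) _
    _ = _ := by
        rw [Measure.smul_apply, ENNReal.smul_def, smul_eq_mul, ENNReal.coe_mul, mul_assoc]

theorem exists_counterexample (ν : Measure E) [ν.IsAddHaarMeasure] {e₀ e₁ : E}
    (h₀ : ‖e₀‖ = 1) (h₁ : ‖e₁‖ = 1) (h01 : ⟪e₀, e₁⟫ = 0) :
    ∃ (μ : Measure E) (V : ℝ≥0∞), IsProbabilityMeasure μ ∧ (∃ C : ℝ≥0, μ ≤ C • ν) ∧
      μ (Metric.closedBall 0 2)ᶜ = 0 ∧ V ≠ ∞ ∧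
      (∃ π : Measure (E × E × E), IsProbabilityMeasure π ∧ π.map (fun q => q.1) = μ ∧
        π.map (fun q => q.2.1) = μ ∧ π.map (fun q => q.2.2) = μ ∧
        ∫⁻ q, ce q.1 q.2.1 q.2.2 ∂π = V) ∧
      ∀ T₂ T₃ : E → E, Measurable T₂ → Measurable T₃ → μ.map T₂ = μ → μ.map T₃ = μ →
        V < ∫⁻ x, ce x (T₂ x) (T₃ x) ∂μ := by
  set p : Bool → E := fun k => cond k e₁ e₀ with hpdef
  have hp : ∀ k, ‖p k‖ = 1 := by intro k; cases k <;> simp [hpdef, h₀, h₁]
  have hpp : ⟪p false, p true⟫ = 0 := h01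
  choose y z a b B using fun k => exists_branch (hp k)
  set A := Metric.closedBall (0 : E) (1 / 10 ^ 12) with hA
  have hAm : MeasurableSet A := (isCompact_closedBall _ _).measurableSet
  have hA0 : ν A ≠ 0 := (Metric.measure_closedBall_pos ν _ (by positivity)).ne'
  have hAt : ν A ≠ ∞ := (isCompact_closedBall _ _).measure_lt_top.ne
  set m : Measure E := ProbabilityTheory.cond ν A with hmdef
  have hmp : IsProbabilityMeasure m := ProbabilityTheory.cond_isProbabilityMeasure_of_finite hA0 hAt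
  have hm : ∀ᵐ x ∂m, x ∈ A := ProbabilityTheory.ae_cond_mem hAm
  have D := data hp hpp B m hm
  have hle : m ≤ ((ν A)⁻¹).toNNReal • ν := by
    refine Measure.le_iff.2 fun s hs => ?_
    rw [hmdef, ProbabilityTheory.cond_apply hAm, Measure.smul_apply, ENNReal.smul_def,
      ENNReal.coe_toNNReal (ENNReal.inv_ne_top.2 hA0), smul_eq_mul]
    exact mul_le_mul_right (measure_mono inter_subset_right) _
  choose Cy hCy using fun k => map_le hm hle (D.hy k) (B k).la (D.hay k)
  choose Cz hCz using fun k => map_le hm hle (D.hz k) (B k).lb (D.hbz k)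
  refine ⟨marg m y z, 3 * ∫⁻ v, ENNReal.ofReal (pot p y z a v) ∂(marg m y z), D.isProb, ?_, ?_,
    ENNReal.mul_ne_top (by norm_num) (ne_top_of_le_ne_top (by norm_num) D.int_u_le),
    ⟨plan m y z, D.plan_prob, D.plan_1, D.plan_2, D.plan_3, D.plan_cost⟩, ?_⟩
  · refine ⟨((ν A)⁻¹).toNNReal + Cy false + Cz false + (((ν A)⁻¹).toNNReal + Cy true + Cz true),
      Measure.le_iff.2 fun s hs => ?_⟩
    have k0 := hle s
    have k1 := hCy false s
    have k2 := hCz false s
    have k3 := hCy true s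
    have k4 := hCz true s
    simp only [marg, Measure.smul_apply, Measure.add_apply, ENNReal.smul_def, smul_eq_mul,
      ENNReal.coe_add, add_mul] at k0 k1 k2 k3 k4 ⊢
    refine le_trans (mul_le_of_le_one_left' (by norm_num)) ?_
    gcongr
  · have : ∀ᵐ v ∂(marg m y z), v ∈ Metric.closedBall (0 : E) 2 := by
      filter_upwards [D.ae_Sup] with v hv
      rw [mem_closedBall_zero_iff]
      linarith [(sup_bounds hp hpp B hv).2.2]
    exact this
  · intro T₂ T₃ h2 h3 e2 e3
    by_contra hcon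
    exact D.no_monge h2 h3 e2 e3 (not_lt.1 hcon)

end Vale.Agent.P121
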