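import Mathlib

/-! The Coulomb force field, its inverse, Lipschitz bounds and semiconvexity of `1 / ‖r‖`. -/

namespace Vale.Agent.P121

open scoped RealInnerProductSpace

variable {E : Type*} [NormedAddCommGroup E] [InnerProductSpace ℝ E]

/-- The gradient of `r ↦ 1 / ‖r‖`. -/
noncomputable def frc (r : E) : E := -((‖r‖ ^ 3)⁻¹ • r)

/-- The inverse of `frc`. -/
noncomputable def ifrc (w : E) : E := -((√‖w‖ ^ 3)⁻¹ • w)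

lemma frc_neg (r : E) : frc (-r) = -frc r := by
  simp [frc]

lemma norm_ifrc {w : E} (hw : w ≠ 0) : ‖ifrc w‖ = (√‖w‖)⁻¹ := by
  have h : 0 < ‖w‖ := norm_pos_iff.2 hw
  have hs : 0 < √‖w‖ := Real.sqrt_pos.2 h
  have h2 : √‖w‖ ^ 2 = ‖w‖ := Real.sq_sqrt h.le
  rw [ifrc, norm_neg, norm_smul, Real.norm_eq_abs, abs_of_pos (by positivity)]
  field_simp
  rw [h2]

lemma frc_ifrc {w : E} (hw : w ≠ 0) : frc (ifrc w) = w := by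
  have h : 0 < ‖w‖ := norm_pos_iff.2 hw
  have hs : 0 < √‖w‖ := Real.sqrt_pos.2 h
  rw [frc, norm_ifrc hw, ifrc, smul_neg, neg_neg, smul_smul]
  have : ((√‖w‖)⁻¹ ^ 3)⁻¹ * (√‖w‖ ^ 3)⁻¹ = 1 := by field_simp
  rw [this, one_smul]

lemma norm_frc {r : E} (hr : r ≠ 0) : ‖frc r‖ = (‖r‖ ^ 2)⁻¹ := by
  have h : 0 < ‖r‖ := norm_pos_iff.2 hr
  rw [frc, norm_neg, norm_smul, Real.norm_eq_abs, abs_of_pos (by positivity)]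
  field_simp

lemma ifrc_frc {r : E} (hr : r ≠ 0) : ifrc (frc r) = r := by
  have h : 0 < ‖r‖ := norm_pos_iff.2 hr
  have h1 : √((‖r‖ ^ 2)⁻¹) = ‖r‖⁻¹ := by
    rw [Real.sqrt_inv, Real.sqrt_sq h.le]
  rw [ifrc, norm_frc hr, h1, frc, smul_neg, neg_neg, smul_smul]
  have : (‖r‖⁻¹ ^ 3)⁻¹ * (‖r‖ ^ 3)⁻¹ = 1 := by field_simp
  rw [this, one_smul]

lemma frc_unit {p : E} (hp : ‖p‖ = 1) : frc p = -p := by
  simp [frc, hp]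

lemma ifrc_unit {p : E} (hp : ‖p‖ = 1) : ifrc p = -p := by
  simp [ifrc, hp]

lemma frc_two_unit {p : E} (hp : ‖p‖ = 1) : frc (-((2 : ℝ) • p)) = (1 / 4 : ℝ) • p := by
  rw [frc_neg, frc, neg_neg, norm_smul, hp, smul_smul]
  norm_num

lemma norm_smul_sub_smul_le (a b : ℝ) (ha : 0 ≤ a) (r s : E) :
    ‖-(a • r) - -(b • s)‖ ≤ a * ‖r - s‖ + |a - b| * ‖s‖ := by
  have : -(a • r) - -(b • s) = -(a • (r - s) + (a - b) • s) := by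
    rw [smul_sub, sub_smul]; abel
  rw [this, norm_neg]
  refine (norm_add_le _ _).trans ?_
  rw [norm_smul, norm_smul, Real.norm_eq_abs, Real.norm_eq_abs, abs_of_nonneg ha]

lemma frc_lip {r s : E} (hr : 1 / 2 ≤ ‖r‖) (hs : 1 / 2 ≤ ‖s‖) :
    ‖frc r - frc s‖ ≤ 32 * ‖r - s‖ := by
  have ha : 0 < ‖r‖ := by linarith
  have hb : 0 < ‖s‖ := by linarith
  refine (norm_smul_sub_smul_le _ _ (by positivity) r s).trans ?_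
  have hd : |‖r‖ - ‖s‖| ≤ ‖r - s‖ := abs_norm_sub_norm_le r s
  set a := ‖r‖ with ha'
  set b := ‖s‖ with hb'
  set t := ‖r - s‖ with ht
  have ht0 : 0 ≤ t := norm_nonneg _
  have hia : a⁻¹ ≤ 2 := by rw [inv_le_comm₀ ha (by norm_num)]; linarith
  have hib : b⁻¹ ≤ 2 := by rw [inv_le_comm₀ hb (by norm_num)]; linarith
  have hia0 : 0 < a⁻¹ := inv_pos.2 ha
  have hib0 : 0 < b⁻¹ := inv_pos.2 hb
  have e1 : ((a ^ 3)⁻¹ - (b ^ 3)⁻¹) * b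
      = -(a - b) * (a⁻¹ * b⁻¹ * b⁻¹ + a⁻¹ * a⁻¹ * b⁻¹ + a⁻¹ * a⁻¹ * a⁻¹) := by
    field_simp; ring
  have e2 : |(a ^ 3)⁻¹ - (b ^ 3)⁻¹| * b
      = |a - b| * (a⁻¹ * b⁻¹ * b⁻¹ + a⁻¹ * a⁻¹ * b⁻¹ + a⁻¹ * a⁻¹ * a⁻¹) := by
    have := congrArg abs e1
    rwa [abs_mul, abs_mul, abs_neg, abs_of_pos hb, abs_of_pos (by positivity :
      0 < a⁻¹ * b⁻¹ * b⁻¹ + a⁻¹ * a⁻¹ * b⁻¹ + a⁻¹ * a⁻¹ * a⁻¹)] at this
  have h3 : ∀ x y z : ℝ, 0 < x → 0 < y → 0 < z → x ≤ 2 → y ≤ 2 → z ≤ 2 → x * y * z ≤ 8 := by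
    intro x y z hx hy hz hx2 hy2 hz2
    have : x * y ≤ 2 * 2 := mul_le_mul hx2 hy2 hy.le (by norm_num)
    have : x * y * z ≤ (2 * 2) * 2 := mul_le_mul this hz2 hz.le (by norm_num)
    linarith
  have e3 : (a ^ 3)⁻¹ ≤ 8 := by
    have : (a ^ 3)⁻¹ = a⁻¹ * a⁻¹ * a⁻¹ := by field_simp
    rw [this]; exact h3 _ _ _ hia0 hia0 hia0 hia hia hia
  have e4 : a⁻¹ * b⁻¹ * b⁻¹ + a⁻¹ * a⁻¹ * b⁻¹ + a⁻¹ * a⁻¹ * a⁻¹ ≤ 24 := by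
    have := h3 _ _ _ hia0 hib0 hib0 hia hib hib
    have := h3 _ _ _ hia0 hia0 hib0 hia hia hib
    have := h3 _ _ _ hia0 hia0 hia0 hia hia hia
    linarith
  rw [e2]
  have := mul_le_mul e3 (le_refl t) ht0 (by norm_num)
  have := mul_le_mul hd e4 (by positivity) ht0
  linarith

lemma ifrc_lip {v w : E} (hv : 1 / 9 ≤ ‖v‖) (hw : 1 / 9 ≤ ‖w‖) :
    ‖ifrc v - ifrc w‖ ≤ 81 * ‖v - w‖ := by
  have ha0 : 0 < ‖v‖ := by linarith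
  have hb0 : 0 < ‖w‖ := by linarith
  refine (norm_smul_sub_smul_le _ _ (by positivity) v w).trans ?_
  have hd : |‖v‖ - ‖w‖| ≤ ‖v - w‖ := abs_norm_sub_norm_le v w
  have ha2 : √‖v‖ ^ 2 = ‖v‖ := Real.sq_sqrt ha0.le
  have hb2 : √‖w‖ ^ 2 = ‖w‖ := Real.sq_sqrt hb0.le
  have ha3 : 1 / 3 ≤ √‖v‖ := Real.le_sqrt_of_sq_le (by linarith)
  have hb3 : 1 / 3 ≤ √‖w‖ := Real.le_sqrt_of_sq_le (by linarith)
  set a := √‖v‖ with ha'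
  set b := √‖w‖ with hb'
  set t := ‖v - w‖ with ht
  have ha : 0 < a := by linarith
  have hb : 0 < b := by linarith
  have ht0 : 0 ≤ t := norm_nonneg _
  rw [← ha2, ← hb2] at hd
  rw [← hb2]
  have hia : a⁻¹ ≤ 3 := by rw [inv_le_comm₀ ha (by norm_num)]; linarith
  have hib : b⁻¹ ≤ 3 := by rw [inv_le_comm₀ hb (by norm_num)]; linarith
  have hia0 : 0 < a⁻¹ := inv_pos.2 ha
  have hib0 : 0 < b⁻¹ := inv_pos.2 hb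
  have e1 : ((a ^ 3)⁻¹ - (b ^ 3)⁻¹) * b ^ 2
      = -(a ^ 2 - b ^ 2) * ((a ^ 2 + a * b + b ^ 2) / ((a + b) * a ^ 3 * b)) := by
    field_simp; ring
  have e2 : |(a ^ 3)⁻¹ - (b ^ 3)⁻¹| * b ^ 2
      = |a ^ 2 - b ^ 2| * ((a ^ 2 + a * b + b ^ 2) / ((a + b) * a ^ 3 * b)) := by
    have := congrArg abs e1
    rwa [abs_mul, abs_mul, abs_neg, abs_of_pos (by positivity : 0 < b ^ 2),
      abs_of_pos (by positivity : 0 < (a ^ 2 + a * b + b ^ 2) / ((a + b) * a ^ 3 * b))] at this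
  have h3 : ∀ x y z : ℝ, 0 < x → 0 < y → 0 < z → x ≤ 3 → y ≤ 3 → z ≤ 3 → x * y * z ≤ 27 := by
    intro x y z hx hy hz hx2 hy2 hz2
    have : x * y ≤ 3 * 3 := mul_le_mul hx2 hy2 hy.le (by norm_num)
    have : x * y * z ≤ (3 * 3) * 3 := mul_le_mul this hz2 hz.le (by norm_num)
    linarith
  have e3 : (a ^ 3)⁻¹ ≤ 27 := by
    have : (a ^ 3)⁻¹ = a⁻¹ * a⁻¹ * a⁻¹ := by field_simp
    rw [this]; exact h3 _ _ _ hia0 hia0 hia0 hia hia hia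
  have e4 : (a ^ 2 + a * b + b ^ 2) / ((a + b) * a ^ 3 * b) ≤ 54 := by
    have h5 : (a ^ 2 + a * b + b ^ 2) / ((a + b) * a ^ 3 * b)
        ≤ (a + b) ^ 2 / ((a + b) * a ^ 3 * b) := by
      gcongr
      nlinarith [mul_pos ha hb]
    have h6 : (a + b) ^ 2 / ((a + b) * a ^ 3 * b) = a⁻¹ * a⁻¹ * b⁻¹ + a⁻¹ * a⁻¹ * a⁻¹ := by
      field_simp
    have := h3 _ _ _ hia0 hia0 hib0 hia hia hib
    have := h3 _ _ _ hia0 hia0 hia0 hia hia hia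
    linarith
  rw [e2]
  have := mul_le_mul e3 (le_refl t) ht0 (by norm_num)
  have := mul_le_mul hd e4 (by positivity) ht0
  linarith

/-- Semiconvexity of `r ↦ 1 / ‖r‖`. -/
lemma semiconvex {r h : E} (hr : 9 / 10 ≤ ‖r‖) (hrh : r + h ≠ 0) :
    ‖r‖⁻¹ + ⟪frc r, h⟫ - ‖h‖ ^ 2 ≤ ‖r + h‖⁻¹ := by
  have ha : 0 < ‖r‖ := by linarith
  have hb : 0 < ‖r + h‖ := norm_pos_iff.2 hrh
  have hsq : ‖r + h‖ ^ 2 = ‖r‖ ^ 2 + 2 * ⟪r, h⟫ + ‖h‖ ^ 2 := norm_add_sq_real r h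
  have hin : ⟪frc r, h⟫ = -((‖r‖ ^ 3)⁻¹ * ⟪r, h⟫) := by
    rw [frc, inner_neg_left, real_inner_smul_left]
  rw [hin]
  set a := ‖r‖
  set b := ‖r + h‖
  set t := ‖h‖ ^ 2 with ht
  have ht0 : 0 ≤ t := by positivity
  set i := ⟪r, h⟫
  have hi : i = (b ^ 2 - a ^ 2 - t) / 2 := by linarith
  have key : a⁻¹ - (b ^ 2 - a ^ 2) / (2 * a ^ 3) ≤ b⁻¹ := by
    have : b⁻¹ - (a⁻¹ - (b ^ 2 - a ^ 2) / (2 * a ^ 3)) = (b - a) ^ 2 * (b + 2 * a) / (2 * a ^ 3 * b) := by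
      field_simp; ring
    have h2 : 0 ≤ (b - a) ^ 2 * (b + 2 * a) / (2 * a ^ 3 * b) := by positivity
    linarith
  have h3 : (a ^ 3)⁻¹ ≤ 2 := by
    rw [inv_le_comm₀ (by positivity) (by norm_num)]
    have : (9 / 10 : ℝ) ^ 3 ≤ a ^ 3 := by gcongr
    linarith
  have h4 : -((a ^ 3)⁻¹ * i) = -((b ^ 2 - a ^ 2) / (2 * a ^ 3)) + (a ^ 3)⁻¹ * t / 2 := by
    rw [hi]; field_simp; ring
  have h5 : (a ^ 3)⁻¹ * t ≤ 2 * t := by gcongr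
  rw [h4]
  linarith

end Vale.Agent.P121
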